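import Vale.Agent.P245.H188.Quad
import Vale.Agent.P245.Defs

/-!
# Donsker-Varadhan duality for densities and its consequences for subgaussian laws

For a density `f` with respect to a probability measure `μ` with `∫ f log f dμ = H`:
* `∫ f F dμ ≤ H + log ∫ exp F dμ`;
* if `E exp ⟨v, X⟩ ≤ exp (A |v|² / 2)` for all `v`, then `|∫ f x dμ|² ≤ 2 A H` and
  `∫ f ⟨x, M x⟩ dμ ≤ 4 A c H + 2 A tr M` for `0 ≤ M ≤ c`.
-/

open MeasureTheory Real
open scoped ENNReal

namespace Vale.Agent.P245.H188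

/-- Young: `a b ≤ a log a - a + e^b` for `a ≥ 0` -/
theorem mul_le_log_add_exp {a : ℝ} (ha : 0 ≤ a) (b : ℝ) :
    a * b ≤ a * log a - a + exp b := by
  rcases ha.eq_or_lt with h | h
  · rw [← h]
    simpa using (exp_pos b).le
  · have h1 := add_one_le_exp (b - log a)
    rw [exp_sub, exp_log h, le_div_iff₀ h] at h1
    nlinarith

section
variable {Ω : Type*} [MeasurableSpace Ω]

/-- `f F` is integrable as soon as `f log f` and `exp F` are, for `F ≥ 0` -/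
theorem integrable_mul_of_exp {μ : Measure Ω} {f F : Ω → ℝ} (hf0 : ∀ x, 0 ≤ f x)
    (hf : Integrable f μ) (hfl : Integrable (fun x => f x * log (f x)) μ)
    (hFm : AEStronglyMeasurable F μ) (hF0 : ∀ x, 0 ≤ F x)
    (hF : Integrable (fun x => exp (F x)) μ) :
    Integrable (fun x => f x * F x) μ := by
  have h1 : Integrable (fun x => f x * log (f x) - f x + exp (F x)) μ := (hfl.sub hf).add hF
  refine h1.mono' (hf.aestronglyMeasurable.mul hFm) (Filter.Eventually.of_forall fun x => ?_)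
  rw [norm_of_nonneg (mul_nonneg (hf0 x) (hF0 x))]
  exact mul_le_log_add_exp (hf0 x) (F x)

/-- signed version: `f F` is integrable if `f log f`, `exp F` and `exp (-F)` are -/
theorem integrable_mul_of_exp' {μ : Measure Ω} {f F : Ω → ℝ} (hf0 : ∀ x, 0 ≤ f x)
    (hf : Integrable f μ) (hfl : Integrable (fun x => f x * log (f x)) μ)
    (hFm : AEStronglyMeasurable F μ)
    (hF : Integrable (fun x => exp (F x)) μ) (hF' : Integrable (fun x => exp (-F x)) μ) :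
    Integrable (fun x => f x * F x) μ := by
  have h2 : Integrable (fun x => f x * log (f x) - f x + (exp (F x) + exp (-F x))) μ :=
    (hfl.sub hf).add (hF.add hF')
  refine h2.mono' (hf.aestronglyMeasurable.mul hFm) (Filter.Eventually.of_forall fun x => ?_)
  rw [norm_mul, norm_of_nonneg (hf0 x), norm_eq_abs]
  refine (mul_le_log_add_exp (hf0 x) |F x|).trans ?_
  have h3 : exp |F x| ≤ exp (F x) + exp (-F x) := by
    rcases abs_cases (F x) with ⟨h, _⟩ | ⟨h, _⟩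
    · rw [h]
      linarith [exp_pos (-F x)]
    · rw [h]
      linarith [exp_pos (F x)]
  linarith

/-- **Donsker-Varadhan** for a density `f`: `∫ f F dμ ≤ ∫ f log f dμ + log ∫ exp F dμ` -/
theorem dv {μ : Measure Ω} [NeZero μ] {f F : Ω → ℝ} (hf0 : ∀ x, 0 ≤ f x)
    (hf : Integrable f μ) (hf1 : ∫ x, f x ∂μ = 1)
    (hfl : Integrable (fun x => f x * log (f x)) μ)
    (hfF : Integrable (fun x => f x * F x) μ) (hF : Integrable (fun x => exp (F x)) μ) :
    ∫ x, f x * F x ∂μ ≤ ∫ x, f x * log (f x) ∂μ + log (∫ x, exp (F x) ∂μ) := by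
  have hZ0 : 0 < ∫ x, exp (F x) ∂μ := integral_exp_pos hF
  set Z : ℝ := ∫ x, exp (F x) ∂μ with hZ
  have hpt : ∀ x, f x * F x - f x * log Z ≤ f x * log (f x) - f x + exp (F x) / Z := by
    intro x
    have h := mul_le_log_add_exp (hf0 x) (F x - log Z)
    rw [exp_sub, exp_log hZ0] at h
    linarith
  have h1 := integral_mono (hfF.sub (hf.mul_const (log Z)))
    ((hfl.sub hf).add (hF.div_const Z)) hpt
  have h2 : ∫ x, (f x * F x - f x * log Z) ∂μ = ∫ x, f x * F x ∂μ - log Z := by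
    rw [integral_sub hfF (hf.mul_const _), integral_mul_const, hf1, one_mul]
  have h3 : ∫ x, (f x * log (f x) - f x + exp (F x) / Z) ∂μ
      = ∫ x, f x * log (f x) ∂μ := by
    have h4 : ∫ x, (f x * log (f x) - f x) ∂μ = ∫ x, f x * log (f x) ∂μ - 1 := by
      rw [integral_sub hfl hf, hf1]
    have h5 : ∫ x, (f x * log (f x) - f x + exp (F x) / Z) ∂μ
        = ∫ x, (f x * log (f x) - f x) ∂μ + ∫ x, exp (F x) / Z ∂μ :=
      integral_add (hfl.sub hf) (hF.div_const Z)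
    rw [h5, h4, integral_div, ← hZ, div_self hZ0.ne']
    ring
  simp only [Pi.sub_apply, Pi.add_apply] at h1
  rw [h2, h3] at h1
  linarith

/-- Donsker-Varadhan with an upper bound of the exponential moment given as a `lintegral`,
for `F ≥ 0`; integrability of `f F` is part of the conclusion. -/
theorem dv_nonneg {μ : Measure Ω} [NeZero μ] {f F : Ω → ℝ} (hf0 : ∀ x, 0 ≤ f x)
    (hf : Integrable f μ) (hf1 : ∫ x, f x ∂μ = 1)
    (hfl : Integrable (fun x => f x * log (f x)) μ)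
    (hFm : AEMeasurable F μ) (hF0 : ∀ x, 0 ≤ F x) {K : ℝ}
    (hF : ∫⁻ x, ENNReal.ofReal (exp (F x)) ∂μ ≤ ENNReal.ofReal (exp K)) :
    Integrable (fun x => f x * F x) μ ∧
    ∫ x, f x * F x ∂μ ≤ ∫ x, f x * log (f x) ∂μ + K := by
  have hFi : Integrable (fun x => exp (F x)) μ := by
    refine ⟨(measurable_exp.comp_aemeasurable hFm).aestronglyMeasurable, ?_⟩
    rw [hasFiniteIntegral_iff_ofReal (Filter.Eventually.of_forall fun x => (exp_pos _).le)]
    exact lt_of_le_of_lt hF ENNReal.ofReal_lt_top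
  have hI := integrable_mul_of_exp hf0 hf hfl hFm.aestronglyMeasurable hF0 hFi
  refine ⟨hI, ?_⟩
  have h1 := dv hf0 hf hf1 hfl hI hFi
  have h2 : ∫ x, exp (F x) ∂μ ≤ exp K := by
    rw [integral_eq_lintegral_of_nonneg_ae (Filter.Eventually.of_forall fun x => (exp_pos _).le)
      hFi.aestronglyMeasurable]
    exact ENNReal.toReal_le_of_le_ofReal (exp_pos _).le hF
  have h3 : log (∫ x, exp (F x) ∂μ) ≤ K := by
    rw [log_le_iff_le_exp (integral_exp_pos hFi)]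
    exact h2
  linarith

end

section
variable {E : Type*} [NormedAddCommGroup E] [InnerProductSpace ℝ E] [MeasurableSpace E]
  [BorelSpace E] [SecondCountableTopology E]

/-- `μ` is `A`-subgaussian around `0`: `E exp ⟨v, X⟩ ≤ exp (A |v|² / 2)` for all `v`. -/
def SubG (μ : Measure E) (A : ℝ) : Prop :=
  ∀ v : E, ∫⁻ x, ENNReal.ofReal (exp (inner ℝ v x)) ∂μ ≤ ENNReal.ofReal (exp (A * ‖v‖ ^ 2 / 2))

theorem SubG.integrable_exp {μ : Measure E} {A : ℝ} (h : SubG μ A) (v : E) :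
    Integrable (fun x => exp (inner ℝ v x)) μ := by
  refine ⟨by fun_prop, ?_⟩
  rw [hasFiniteIntegral_iff_ofReal (Filter.Eventually.of_forall fun x => (exp_pos _).le)]
  exact lt_of_le_of_lt (h v) ENNReal.ofReal_lt_top

theorem SubG.integral_exp_le {μ : Measure E} {A : ℝ} (h : SubG μ A) (v : E) :
    ∫ x, exp (inner ℝ v x) ∂μ ≤ exp (A * ‖v‖ ^ 2 / 2) := by
  rw [integral_eq_lintegral_of_nonneg_ae (Filter.Eventually.of_forall fun x => (exp_pos _).le)
    (h.integrable_exp v).aestronglyMeasurable]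
  exact ENNReal.toReal_le_of_le_ofReal (exp_pos _).le (h v)

/-- linear test functions are integrable against a density of finite entropy -/
theorem SubG.integrable_mul_inner {μ : Measure E} {A : ℝ} (h : SubG μ A) {f : E → ℝ}
    (hf0 : ∀ x, 0 ≤ f x) (hf : Integrable f μ)
    (hfl : Integrable (fun x => f x * log (f x)) μ) (v : E) :
    Integrable (fun x => f x * inner ℝ v x) μ := by
  apply integrable_mul_of_exp' hf0 hf hfl (by fun_prop) (h.integrable_exp v)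
  have h2 := h.integrable_exp (-v)
  simpa [inner_neg_left] using h2

/-- `∫ f ⟨v, x⟩ dμ ≤ H + A |v|² / 2` -/
theorem SubG.dv_inner {μ : Measure E} [NeZero μ] {A : ℝ} (h : SubG μ A) {f : E → ℝ}
    (hf0 : ∀ x, 0 ≤ f x) (hf : Integrable f μ) (hf1 : ∫ x, f x ∂μ = 1)
    (hfl : Integrable (fun x => f x * log (f x)) μ) (v : E) :
    ∫ x, f x * inner ℝ v x ∂μ ≤ ∫ x, f x * log (f x) ∂μ + A * ‖v‖ ^ 2 / 2 := by
  have h1 := dv hf0 hf hf1 hfl (h.integrable_mul_inner hf0 hf hfl v) (h.integrable_exp v)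
  have h3 : log (∫ x, exp (inner ℝ v x) ∂μ) ≤ A * ‖v‖ ^ 2 / 2 := by
    rw [log_le_iff_le_exp (integral_exp_pos (h.integrable_exp v))]
    exact h.integral_exp_le v
  linarith

/-- `0 ≤ H` -/
theorem SubG.entropy_nonneg {μ : Measure E} [NeZero μ] {A : ℝ} (h : SubG μ A) {f : E → ℝ}
    (hf0 : ∀ x, 0 ≤ f x) (hf : Integrable f μ) (hf1 : ∫ x, f x ∂μ = 1)
    (hfl : Integrable (fun x => f x * log (f x)) μ) :
    0 ≤ ∫ x, f x * log (f x) ∂μ := by
  have := h.dv_inner hf0 hf hf1 hfl 0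
  simpa using this

/-- any vector `m` with `⟨v, m⟩ = ∫ f ⟨v, x⟩ dμ` satisfies `|m|² ≤ 2 A H` -/
theorem SubG.norm_sq_le {μ : Measure E} [NeZero μ] {A : ℝ} (hA : 0 < A) (h : SubG μ A)
    {f : E → ℝ} (hf0 : ∀ x, 0 ≤ f x) (hf : Integrable f μ) (hf1 : ∫ x, f x ∂μ = 1)
    (hfl : Integrable (fun x => f x * log (f x)) μ) {m : E}
    (hm : inner ℝ m m = ∫ x, f x * inner ℝ m x ∂μ) :
    ‖m‖ ^ 2 ≤ 2 * A * ∫ x, f x * log (f x) ∂μ := by
  have h1 := h.dv_inner hf0 hf hf1 hfl (A⁻¹ • m)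
  simp_rw [real_inner_smul_left] at h1
  have h2 : ∫ x, f x * (A⁻¹ * inner ℝ m x) ∂μ = A⁻¹ * ‖m‖ ^ 2 := by
    rw [← real_inner_self_eq_norm_sq, hm, ← integral_const_mul]
    apply integral_congr_ae (Filter.Eventually.of_forall fun x => ?_)
    ring
  rw [h2, norm_smul, mul_pow, norm_of_nonneg (inv_nonneg.2 hA.le)] at h1
  have h3 : A * (A⁻¹ ^ 2 * ‖m‖ ^ 2) / 2 = A⁻¹ * ‖m‖ ^ 2 / 2 := by
    field_simp
  rw [h3] at h1
  have h4 : A⁻¹ * ‖m‖ ^ 2 / 2 ≤ ∫ x, f x * log (f x) ∂μ := by linarith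
  have h5 : ‖m‖ ^ 2 = 2 * A * (A⁻¹ * ‖m‖ ^ 2 / 2) := by
    field_simp
  rw [h5]
  gcongr

/-- `∫ f (∑ w i ⟨v i, x⟩²) dμ ≤ 2 H + 2 A ∑ w i` if `0 ≤ A w i ≤ 1/2` (`v` orthonormal) -/
theorem SubG.quad_sum {μ : Measure E} [SFinite μ] [NeZero μ] {A : ℝ} (hA : 0 ≤ A)
    (h : SubG μ A) {f : E → ℝ}
    (hf0 : ∀ x, 0 ≤ f x) (hf : Integrable f μ) (hf1 : ∫ x, f x ∂μ = 1)
    (hfl : Integrable (fun x => f x * log (f x)) μ)
    {ι : Type*} {v : ι → E} (hv : Orthonormal ℝ v) {w : ι → ℝ} (hw0 : ∀ i, 0 ≤ w i)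
    (hw : ∀ i, A * w i ≤ 1 / 2) (S : Finset ι) :
    Integrable (fun x => f x * ∑ i ∈ S, w i * inner ℝ (v i) x ^ 2) μ ∧
    ∫ x, f x * (∑ i ∈ S, w i * inner ℝ (v i) x ^ 2) ∂μ
      ≤ 2 * ∫ x, f x * log (f x) ∂μ + 2 * A * ∑ i ∈ S, w i := by
  have h1 := quad_exp_sum (C := 1) hA zero_le_one (by simpa [SubG] using h) hv hw0 hw S
  rw [one_mul] at h1
  have h2 := dv_nonneg hf0 hf hf1 hfl (by fun_prop)
    (fun x => div_nonneg (Finset.sum_nonneg fun i _ =>
      mul_nonneg (hw0 i) (sq_nonneg _)) (by norm_num)) h1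
  have e : ∀ x, f x * (∑ i ∈ S, w i * inner ℝ (v i) x ^ 2)
      = 2 * (f x * ((∑ i ∈ S, w i * inner ℝ (v i) x ^ 2) / 2)) := by
    intro x
    ring
  simp_rw [e]
  refine ⟨h2.1.const_mul 2, ?_⟩
  rw [integral_const_mul]
  linarith [h2.2]

end

section Mat
open Matrix

variable {ι : Type*} [Fintype ι] [DecidableEq ι]

/-- **Second moments, matrix form.** `∫ f ⟨x, M x⟩ dμ ≤ 4 A c H + 2 A tr M` if `0 ≤ M ≤ c`. -/
theorem SubG.quad_matrix {μ : Measure (EuclideanSpace ℝ ι)} [SFinite μ] [NeZero μ] {A c : ℝ}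
    (hA : 0 < A) (hc0 : 0 < c) (h : SubG μ A) {f : EuclideanSpace ℝ ι → ℝ}
    (hf0 : ∀ x, 0 ≤ f x) (hf : Integrable f μ) (hf1 : ∫ x, f x ∂μ = 1)
    (hfl : Integrable (fun x => f x * log (f x)) μ)
    {M : Matrix ι ι ℝ} (hM : M.PosSemidef)
    (hc : ∀ y : EuclideanSpace ℝ ι, y.ofLp ⬝ᵥ (M *ᵥ y.ofLp) ≤ c * ‖y‖ ^ 2) :
    Integrable (fun x => f x * (x.ofLp ⬝ᵥ (M *ᵥ x.ofLp))) μ ∧
    ∫ x, f x * (x.ofLp ⬝ᵥ (M *ᵥ x.ofLp)) ∂μ
      ≤ 4 * A * c * ∫ x, f x * log (f x) ∂μ + 2 * A * M.trace := by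
  set lam := hM.isHermitian.eigenvalues with hlam
  have hl0 : ∀ i, 0 ≤ lam i := fun i => hM.eigenvalues_nonneg i
  have hlc : ∀ i, lam i ≤ c := eigenvalue_le hM.isHermitian hc
  have h2 := h.quad_sum hA.le hf0 hf hf1 hfl
    hM.isHermitian.eigenvectorBasis.orthonormal
    (w := fun i => (2 * A * c)⁻¹ * lam i)
    (fun i => mul_nonneg (by positivity) (hl0 i))
    (fun i => by
      have : A * ((2 * A * c)⁻¹ * lam i) = (lam i / c) / 2 := by field_simp
      rw [this]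
      have := (div_le_one hc0).2 (hlc i)
      linarith)
    Finset.univ
  have e : ∀ x : EuclideanSpace ℝ ι, f x * (x.ofLp ⬝ᵥ (M *ᵥ x.ofLp))
      = 2 * A * c * (f x * ∑ i, (2 * A * c)⁻¹ * lam i
        * inner ℝ (hM.isHermitian.eigenvectorBasis i) x ^ 2) := by
    intro x
    rw [quad_form_eq hM.isHermitian, ← hlam]
    simp_rw [mul_assoc ((2 * A * c)⁻¹)]
    rw [← Finset.mul_sum]
    field_simp
  simp_rw [e]
  refine ⟨h2.1.const_mul _, ?_⟩
  rw [integral_const_mul]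
  have h3 := mul_le_mul_of_nonneg_left h2.2 (show 0 ≤ 2 * A * c by positivity)
  refine h3.trans (le_of_eq ?_)
  rw [hM.isHermitian.trace_eq_sum_eigenvalues, ← Finset.mul_sum]
  simp only [RCLike.ofReal_real_eq_id, id_eq]
  rw [← hlam]
  field_simp
  ring

end Mat

end Vale.Agent.P245.H188
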