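import Mathlib

/-!
# Exponential moments of quadratic forms under a subgaussian law (Gaussian linearisation)

If `∫ exp ⟨h, x⟩ dμ ≤ C exp (A ‖h‖² / 2)` for all `h`, then for an orthonormal family `v` and
weights `w i ≥ 0` with `A w i < 1`
`∫ exp ((∑ w i ⟨v i, x⟩²) / 2) dμ ≤ C ∏ (1 - A w i)^{-1/2}`, and for a positive semidefinite
matrix `M ≤ 1 / (2 A)` the bound is `C exp (A tr M)`.
-/

open MeasureTheory Real
open scoped ENNReal

namespace Vale.Agent.P245.H188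

/-- `∫ (2π)^{-1/2} e^{-z²/2} e^{z t} dz = e^{t²/2}` -/
theorem gauss_lin (t : ℝ) :
    ∫⁻ z : ℝ, ENNReal.ofReal ((√(2 * π))⁻¹ * exp (-z ^ 2 / 2) * exp (z * t))
      = ENNReal.ofReal (exp (t ^ 2 / 2)) := by
  have h0 : ∀ z : ℝ, (√(2 * π))⁻¹ * exp (-z ^ 2 / 2) * exp (z * t)
      = ((√(2 * π))⁻¹ * exp (t ^ 2 / 2)) * exp (-(1 / 2) * (z - t) ^ 2) := by
    intro z
    rw [mul_assoc, mul_assoc, ← exp_add, ← exp_add]
    congr 2
    ring
  have hi : Integrable (fun z : ℝ => exp (-(1 / 2) * z ^ 2)) :=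
    integrable_exp_neg_mul_sq (by norm_num)
  have hi2 : Integrable (fun z : ℝ => exp (-(1 / 2) * (z - t) ^ 2)) := hi.comp_sub_right t
  rw [← ofReal_integral_eq_lintegral_ofReal]
  · congr 1
    simp_rw [h0]
    rw [integral_const_mul, integral_sub_right_eq_self (fun z : ℝ => exp (-(1 / 2) * z ^ 2)) t,
      integral_gaussian]
    have h2 : √(π / (1 / 2)) = √(2 * π) := by
      congr 1
      ring
    rw [h2]
    have h3 : √(2 * π) ≠ 0 := by positivity
    field_simp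
  · simp_rw [h0]
    exact hi2.const_mul _
  · exact Filter.Eventually.of_forall fun z => by positivity

/-- `∫ (2π)^{-1/2} e^{-z²/2} e^{t z²/2} dz = (1 - t)^{-1/2}` for `t < 1` -/
theorem gauss_quad {t : ℝ} (ht : t < 1) :
    ∫⁻ z : ℝ, ENNReal.ofReal ((√(2 * π))⁻¹ * exp (-z ^ 2 / 2) * exp (t * z ^ 2 / 2))
      = ENNReal.ofReal ((√(1 - t))⁻¹) := by
  have ht1 : 0 < 1 - t := by linarith
  have h0 : ∀ z : ℝ, (√(2 * π))⁻¹ * exp (-z ^ 2 / 2) * exp (t * z ^ 2 / 2)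
      = (√(2 * π))⁻¹ * exp (-((1 - t) / 2) * z ^ 2) := by
    intro z
    rw [mul_assoc, ← exp_add]
    congr 2
    ring
  have hi : Integrable (fun z : ℝ => exp (-((1 - t) / 2) * z ^ 2)) :=
    integrable_exp_neg_mul_sq (by linarith)
  rw [← ofReal_integral_eq_lintegral_ofReal]
  · congr 1
    simp_rw [h0]
    rw [integral_const_mul, integral_gaussian]
    have h2 : √(π / ((1 - t) / 2)) = (√(1 - t))⁻¹ * √(2 * π) := by
      rw [← Real.sqrt_inv, ← Real.sqrt_mul (by positivity)]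
      congr 1
      field_simp
    rw [h2]
    have h3 : √(2 * π) ≠ 0 := by positivity
    have h4 : √(1 - t) ≠ 0 := by positivity
    field_simp
  · simp_rw [h0]
    exact hi.const_mul _
  · exact Filter.Eventually.of_forall fun z => by positivity

section
variable {E : Type*} [NormedAddCommGroup E] [InnerProductSpace ℝ E] [MeasurableSpace E]
  [BorelSpace E] [SecondCountableTopology E]

/-- the induction behind `quad_exp` -/
theorem quad_aux {μ : Measure E} [SFinite μ] {A C : ℝ} (_hA : 0 ≤ A) (hC : 0 ≤ C)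
    (hsub : ∀ h : E, ∫⁻ x, ENNReal.ofReal (exp (inner ℝ h x)) ∂μ
      ≤ ENNReal.ofReal (C * exp (A * ‖h‖ ^ 2 / 2)))
    {ι : Type*} {v : ι → E} (hv : Orthonormal ℝ v) {w : ι → ℝ} (hw0 : ∀ i, 0 ≤ w i)
    (hw : ∀ i, A * w i < 1) (S : Finset ι) :
    ∀ h : E, (∀ i ∈ S, inner ℝ (v i) h = 0) →
    ∫⁻ x, ENNReal.ofReal (exp (inner ℝ h x)
        * exp ((∑ i ∈ S, w i * inner ℝ (v i) x ^ 2) / 2)) ∂μ
      ≤ ENNReal.ofReal (C * (∏ i ∈ S, (√(1 - A * w i))⁻¹) * exp (A * ‖h‖ ^ 2 / 2)) := by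
  classical
  induction S using Finset.induction_on with
  | empty =>
    intro h _
    simpa using hsub h
  | insert j S hj ih =>
    intro h hh
    have hhS : ∀ i ∈ S, inner ℝ (v i) h = 0 := fun i hi => hh i (Finset.mem_insert_of_mem hi)
    have hhj : inner ℝ (v j) h = 0 := hh j (Finset.mem_insert_self _ _)
    have hvj : ‖v j‖ = 1 := hv.1 j
    have hP0 : 0 ≤ ∏ i ∈ S, (√(1 - A * w i))⁻¹ :=
      Finset.prod_nonneg fun i _ => by positivity
    have hs2 : √(w j) ^ 2 = w j := Real.sq_sqrt (hw0 j)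
    -- pointwise rewriting by the Gaussian integral
    have key : ∀ x, ENNReal.ofReal (exp (inner ℝ h x)
        * exp ((∑ i ∈ insert j S, w i * inner ℝ (v i) x ^ 2) / 2))
        = ∫⁻ z : ℝ, ENNReal.ofReal ((√(2 * π))⁻¹ * exp (-z ^ 2 / 2)) *
            ENNReal.ofReal (exp (inner ℝ (h + (z * √(w j)) • v j) x)
              * exp ((∑ i ∈ S, w i * inner ℝ (v i) x ^ 2) / 2)) := by
      intro x
      have e1 : ∀ z : ℝ, ENNReal.ofReal ((√(2 * π))⁻¹ * exp (-z ^ 2 / 2)) *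
            ENNReal.ofReal (exp (inner ℝ (h + (z * √(w j)) • v j) x)
              * exp ((∑ i ∈ S, w i * inner ℝ (v i) x ^ 2) / 2))
          = ENNReal.ofReal (exp (inner ℝ h x)
              * exp ((∑ i ∈ S, w i * inner ℝ (v i) x ^ 2) / 2)) *
            ENNReal.ofReal ((√(2 * π))⁻¹ * exp (-z ^ 2 / 2)
              * exp (z * (√(w j) * inner ℝ (v j) x))) := by
        intro z
        rw [← ENNReal.ofReal_mul (by positivity), ← ENNReal.ofReal_mul (by positivity)]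
        congr 1
        rw [inner_add_left, real_inner_smul_left, exp_add,
          show z * √(w j) * inner ℝ (v j) x = z * (√(w j) * inner ℝ (v j) x) by ring]
        ring
      simp_rw [e1]
      rw [lintegral_const_mul _ (by fun_prop), gauss_lin, ← ENNReal.ofReal_mul (by positivity)]
      congr 1
      rw [Finset.sum_insert hj, add_div, exp_add,
        show (√(w j) * inner ℝ (v j) x) ^ 2 / 2 = w j * inner ℝ (v j) x ^ 2 / 2 by
          rw [mul_pow, hs2]]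
      ring
    calc ∫⁻ x, ENNReal.ofReal (exp (inner ℝ h x)
          * exp ((∑ i ∈ insert j S, w i * inner ℝ (v i) x ^ 2) / 2)) ∂μ
        = ∫⁻ x, (∫⁻ z : ℝ, ENNReal.ofReal ((√(2 * π))⁻¹ * exp (-z ^ 2 / 2)) *
            ENNReal.ofReal (exp (inner ℝ (h + (z * √(w j)) • v j) x)
              * exp ((∑ i ∈ S, w i * inner ℝ (v i) x ^ 2) / 2))) ∂μ :=
          lintegral_congr key
      _ = ∫⁻ z : ℝ, (∫⁻ x, ENNReal.ofReal ((√(2 * π))⁻¹ * exp (-z ^ 2 / 2)) *
            ENNReal.ofReal (exp (inner ℝ (h + (z * √(w j)) • v j) x)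
              * exp ((∑ i ∈ S, w i * inner ℝ (v i) x ^ 2) / 2)) ∂μ) := by
          apply lintegral_lintegral_swap
          apply Measurable.aemeasurable
          fun_prop
      _ ≤ ∫⁻ z : ℝ, ENNReal.ofReal ((√(2 * π))⁻¹ * exp (-z ^ 2 / 2)) *
            ENNReal.ofReal (C * (∏ i ∈ S, (√(1 - A * w i))⁻¹)
              * exp (A * ‖h + (z * √(w j)) • v j‖ ^ 2 / 2)) := by
          apply lintegral_mono
          intro z
          simp only
          rw [lintegral_const_mul _ (by fun_prop)]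
          gcongr
          apply ih
          intro i hi
          rw [inner_add_right, hhS i hi, real_inner_smul_right]
          have hij : i ≠ j := fun e => hj (e ▸ hi)
          rw [hv.2 hij]
          ring
      _ = ∫⁻ z : ℝ, ENNReal.ofReal (C * (∏ i ∈ S, (√(1 - A * w i))⁻¹)
              * exp (A * ‖h‖ ^ 2 / 2)) *
            ENNReal.ofReal ((√(2 * π))⁻¹ * exp (-z ^ 2 / 2)
              * exp (A * w j * z ^ 2 / 2)) := by
          apply lintegral_congr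
          intro z
          rw [← ENNReal.ofReal_mul (by positivity), ← ENNReal.ofReal_mul (by positivity)]
          congr 1
          have h1 : ‖h + (z * √(w j)) • v j‖ ^ 2 = ‖h‖ ^ 2 + w j * z ^ 2 := by
            rw [norm_add_sq_real, real_inner_smul_right, real_inner_comm, hhj, norm_smul, hvj,
              norm_eq_abs]
            rw [mul_one, sq_abs, mul_pow, hs2]
            ring
          rw [h1, show A * (‖h‖ ^ 2 + w j * z ^ 2) / 2
            = A * ‖h‖ ^ 2 / 2 + A * w j * z ^ 2 / 2 by ring, exp_add]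
          ring
      _ = ENNReal.ofReal (C * (∏ i ∈ S, (√(1 - A * w i))⁻¹) * exp (A * ‖h‖ ^ 2 / 2))
            * ENNReal.ofReal ((√(1 - A * w j))⁻¹) := by
          rw [lintegral_const_mul _ (by fun_prop), gauss_quad (hw j)]
      _ = ENNReal.ofReal (C * (∏ i ∈ insert j S, (√(1 - A * w i))⁻¹)
            * exp (A * ‖h‖ ^ 2 / 2)) := by
          rw [← ENNReal.ofReal_mul (by positivity), Finset.prod_insert hj]
          congr 1
          ring

/-- `E exp ((∑ w i ⟨v i, X⟩²) / 2) ≤ C ∏ (1 - A w i)^{-1/2}` -/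
theorem quad_exp {μ : Measure E} [SFinite μ] {A C : ℝ} (hA : 0 ≤ A) (hC : 0 ≤ C)
    (hsub : ∀ h : E, ∫⁻ x, ENNReal.ofReal (exp (inner ℝ h x)) ∂μ
      ≤ ENNReal.ofReal (C * exp (A * ‖h‖ ^ 2 / 2)))
    {ι : Type*} {v : ι → E} (hv : Orthonormal ℝ v) {w : ι → ℝ} (hw0 : ∀ i, 0 ≤ w i)
    (hw : ∀ i, A * w i < 1) (S : Finset ι) :
    ∫⁻ x, ENNReal.ofReal (exp ((∑ i ∈ S, w i * inner ℝ (v i) x ^ 2) / 2)) ∂μ
      ≤ ENNReal.ofReal (C * ∏ i ∈ S, (√(1 - A * w i))⁻¹) := by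
  have h := quad_aux hA hC hsub hv hw0 hw S 0 (fun i _ => by simp)
  simpa using h

/-- `(1 - t)^{-1/2} ≤ e^t` for `0 ≤ t ≤ 1/2` -/
theorem inv_sqrt_le_exp {t : ℝ} (h0 : 0 ≤ t) (h1 : t ≤ 1 / 2) : (√(1 - t))⁻¹ ≤ exp t := by
  have h2 : 0 < 1 - t := by linarith
  have h3 : exp (-t) ≤ √(1 - t) := by
    apply Real.le_sqrt_of_sq_le
    rw [← exp_nat_mul]
    have h4 : (1 : ℝ) ≤ (1 - t) * exp (2 * t) := by
      have h5 : 1 + 2 * t ≤ exp (2 * t) := by
        have := add_one_le_exp (2 * t)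
        linarith
      calc (1 : ℝ) ≤ (1 - t) * (1 + 2 * t) := by nlinarith
        _ ≤ (1 - t) * exp (2 * t) := by gcongr
    have h6 : exp (((2 : ℕ) : ℝ) * -t) = (exp (2 * t))⁻¹ := by
      rw [← exp_neg]
      congr 1
      push_cast
      ring
    rw [h6, inv_le_iff_one_le_mul₀ (exp_pos _)]
    exact h4
  rw [inv_le_comm₀ (by positivity) (exp_pos _), ← exp_neg]
  exact h3

/-- trace form: `E exp ((∑ w i ⟨v i, X⟩²) / 2) ≤ C exp (A ∑ w i)` if `0 ≤ A w i ≤ 1/2` -/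
theorem quad_exp_sum {μ : Measure E} [SFinite μ] {A C : ℝ} (hA : 0 ≤ A) (hC : 0 ≤ C)
    (hsub : ∀ h : E, ∫⁻ x, ENNReal.ofReal (exp (inner ℝ h x)) ∂μ
      ≤ ENNReal.ofReal (C * exp (A * ‖h‖ ^ 2 / 2)))
    {ι : Type*} {v : ι → E} (hv : Orthonormal ℝ v) {w : ι → ℝ} (hw0 : ∀ i, 0 ≤ w i)
    (hw : ∀ i, A * w i ≤ 1 / 2) (S : Finset ι) :
    ∫⁻ x, ENNReal.ofReal (exp ((∑ i ∈ S, w i * inner ℝ (v i) x ^ 2) / 2)) ∂μ
      ≤ ENNReal.ofReal (C * exp (A * ∑ i ∈ S, w i)) := by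
  refine (quad_exp hA hC hsub hv hw0 (fun i => lt_of_le_of_lt (hw i) (by norm_num)) S).trans ?_
  apply ENNReal.ofReal_le_ofReal
  apply mul_le_mul_of_nonneg_left _ hC
  rw [Finset.mul_sum, exp_sum]
  apply Finset.prod_le_prod
  · intro i _
    positivity
  · intro i _
    exact inv_sqrt_le_exp (mul_nonneg hA (hw0 i)) (hw i)

end

section Mat
open Matrix

variable {ι : Type*} [Fintype ι] [DecidableEq ι]

/-- a symmetric quadratic form in the eigenbasis -/
theorem quad_form_eq {M : Matrix ι ι ℝ} (hM : M.IsHermitian) (x : EuclideanSpace ℝ ι) :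
    x.ofLp ⬝ᵥ (M *ᵥ x.ofLp)
      = ∑ i, hM.eigenvalues i * inner ℝ (hM.eigenvectorBasis i) x ^ 2 := by
  have hsym : Mᵀ = M := by
    have h := hM.eq
    rwa [conjTranspose_eq_transpose_of_trivial] at h
  have h1 : x.ofLp ⬝ᵥ (M *ᵥ x.ofLp) = inner ℝ x (WithLp.toLp 2 (M *ᵥ x.ofLp)) := by
    rw [EuclideanSpace.inner_eq_star_dotProduct, star_trivial, dotProduct_comm]
  rw [h1, ← OrthonormalBasis.sum_inner_mul_inner hM.eigenvectorBasis]
  apply Finset.sum_congr rfl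
  intro i _
  have h2 : inner ℝ (hM.eigenvectorBasis i) (WithLp.toLp 2 (M *ᵥ x.ofLp))
      = hM.eigenvalues i * inner ℝ (hM.eigenvectorBasis i) x := by
    rw [EuclideanSpace.inner_eq_star_dotProduct, EuclideanSpace.inner_eq_star_dotProduct,
      star_trivial]
    change (M *ᵥ x.ofLp) ⬝ᵥ (hM.eigenvectorBasis i).ofLp = _
    rw [dotProduct_comm, dotProduct_mulVec, ← mulVec_transpose, hsym,
      hM.mulVec_eigenvectorBasis, smul_dotProduct, smul_eq_mul,
      dotProduct_comm]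
  rw [h2, real_inner_comm]
  ring

/-- a bound of the quadratic form bounds the eigenvalues -/
theorem eigenvalue_le {M : Matrix ι ι ℝ} (hM : M.IsHermitian) {c : ℝ}
    (hc : ∀ y : EuclideanSpace ℝ ι, y.ofLp ⬝ᵥ (M *ᵥ y.ofLp) ≤ c * ‖y‖ ^ 2) (i : ι) :
    hM.eigenvalues i ≤ c := by
  have h := hc (hM.eigenvectorBasis i)
  rw [hM.mulVec_eigenvectorBasis, dotProduct_smul, smul_eq_mul,
    hM.eigenvectorBasis.norm_eq_one] at h
  have h2 : (hM.eigenvectorBasis i).ofLp ⬝ᵥ (hM.eigenvectorBasis i).ofLp = 1 := by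
    have h3 := EuclideanSpace.inner_eq_star_dotProduct (𝕜 := ℝ) (hM.eigenvectorBasis i)
      (hM.eigenvectorBasis i)
    rw [star_trivial] at h3
    rw [← h3, real_inner_self_eq_norm_sq, hM.eigenvectorBasis.norm_eq_one]
    norm_num
  rw [h2] at h
  linarith

/-- **Trace form.** `E exp (⟨X, M X⟩ / 2) ≤ C exp (A tr M)` for `0 ≤ M ≤ c`, `A c ≤ 1/2`. -/
theorem quad_matrix {μ : Measure (EuclideanSpace ℝ ι)} [SFinite μ] {A C c : ℝ} (hA : 0 ≤ A)
    (hC : 0 ≤ C)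
    (hsub : ∀ h : EuclideanSpace ℝ ι, ∫⁻ x, ENNReal.ofReal (exp (inner ℝ h x)) ∂μ
      ≤ ENNReal.ofReal (C * exp (A * ‖h‖ ^ 2 / 2)))
    {M : Matrix ι ι ℝ} (hM : M.PosSemidef)
    (hc : ∀ y : EuclideanSpace ℝ ι, y.ofLp ⬝ᵥ (M *ᵥ y.ofLp) ≤ c * ‖y‖ ^ 2)
    (hAc : A * c ≤ 1 / 2) :
    ∫⁻ x, ENNReal.ofReal (exp ((x.ofLp ⬝ᵥ (M *ᵥ x.ofLp)) / 2)) ∂μ
      ≤ ENNReal.ofReal (C * exp (A * M.trace)) := by
  have h := quad_exp_sum hA hC hsub hM.isHermitian.eigenvectorBasis.orthonormal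
    (w := hM.isHermitian.eigenvalues) (fun i => hM.eigenvalues_nonneg i)
    (fun i => (mul_le_mul_of_nonneg_left (eigenvalue_le hM.isHermitian hc i) hA).trans hAc)
    Finset.univ
  rw [hM.isHermitian.trace_eq_sum_eigenvalues]
  simp_rw [quad_form_eq hM.isHermitian]
  simpa using h

end Mat

end Vale.Agent.P245.H188
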