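import Vale.Agent.P245.Bdl.B2
import Vale.Agent.P245.H188.Quad

/-!
# Row HID (12), part 1: one output of the channel

`mu` compactly supported with `ExpM mu A`; `N l` a positive density at level `s`; `Psi` a matrix
field (index `k` of any finite type, `i : Fin n`) of operator norm `≤ 1`.
-/

open MeasureTheory Real Set Filter Topology
open scoped ENNReal ContDiff

namespace Vale.Agent.P245.H188

open LS E1

section expo

variable {n : ℕ} {μ : Measure (Fin n → ℝ)} [IsProbabilityMeasure μ] {R : ℝ}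

/-- exponential moments of a quadratic form under `ExpM` -/
theorem quad_expM (h : CSupp μ R) {A : ℝ} (hA : 0 ≤ A) (hexp : ExpM μ A)
    {M : Fin n → Fin n → ℝ} (hsym : ∀ i j, M i j = M j i)
    (h0 : ∀ v : Fin n → ℝ, 0 ≤ ∑ i, ∑ j, M i j * (v i * v j))
    (h1 : ∀ v : Fin n → ℝ, ∑ i, ∑ j, M i j * (v i * v j) ≤ ∑ i, v i ^ 2) :
    ∫ x, exp ((∑ i, ∑ j, M i j * (x i * x j)) / 2) ∂μ ≤ A * exp ((∑ i, M i i) / 2) := by
  have hmeas : Measurable (WithLp.toLp 2 : (Fin n → ℝ) → EuclideanSpace ℝ (Fin n)) := by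
    fun_prop
  set ν : Measure (EuclideanSpace ℝ (Fin n)) := μ.map (WithLp.toLp 2) with hν
  have hpν : IsProbabilityMeasure ν := Measure.isProbabilityMeasure_map hmeas.aemeasurable
  have hquad : ∀ x : Fin n → ℝ, x ⬝ᵥ (Matrix.mulVec (Matrix.of M) x)
      = ∑ i, ∑ j, M i j * (x i * x j) := by
    intro x
    simp only [dotProduct, Matrix.mulVec, Matrix.of_apply, Finset.mul_sum]
    refine Finset.sum_congr rfl fun i _ => Finset.sum_congr rfl fun j _ => ?_
    ring
  have hsub : ∀ v : EuclideanSpace ℝ (Fin n), ∫⁻ x, ENNReal.ofReal (exp (inner ℝ v x)) ∂ν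
      ≤ ENNReal.ofReal (A * exp (1 / 2 * ‖v‖ ^ 2 / 2)) := by
    intro v
    rw [hν, lintegral_map (by fun_prop) hmeas]
    have e1 : ∀ x : Fin n → ℝ, inner ℝ v (WithLp.toLp 2 x) = ∑ i, v i * x i := by
      intro x
      rw [EuclideanSpace.inner_eq_star_dotProduct, star_trivial]
      simp only [dotProduct]
      exact Finset.sum_congr rfl fun i _ => mul_comm _ _
    simp_rw [e1]
    have hi : Integrable (fun x : Fin n → ℝ => exp (∑ i, v i * x i)) μ :=
      (Adm.of_continuous h (by fun_prop)).integrable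
    rw [← ofReal_integral_eq_lintegral_ofReal hi (Eventually.of_forall fun x => (exp_pos _).le)]
    apply ENNReal.ofReal_le_ofReal
    refine (hexp fun i => v i).trans (le_of_eq ?_)
    rw [EuclideanSpace.norm_sq_eq]
    simp only [norm_eq_abs, sq_abs]
    congr 2
    ring
  have hM : (Matrix.of M).PosSemidef := by
    refine Matrix.PosSemidef.of_dotProduct_mulVec_nonneg ?_ ?_
    · ext i j
      simp only [Matrix.conjTranspose_apply, Matrix.of_apply, star_trivial]
      exact hsym j i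
    · intro x
      rw [star_trivial, hquad]
      exact h0 x
  have key := H188.quad_matrix (μ := ν) (A := 1 / 2) (C := A) (c := 1) (by norm_num) hA hsub hM
    (fun y => by
      rw [hquad, one_mul, EuclideanSpace.norm_sq_eq]
      simp only [norm_eq_abs, sq_abs]
      exact h1 _) (by norm_num)
  rw [hν, lintegral_map (by fun_prop) hmeas] at key
  simp_rw [hquad] at key
  have hi : Integrable (fun x : Fin n → ℝ => exp ((∑ i, ∑ j, M i j * (x i * x j)) / 2)) μ :=
    (Adm.of_continuous h (by fun_prop)).integrable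
  rw [← ofReal_integral_eq_lintegral_ofReal hi (Eventually.of_forall fun x => (exp_pos _).le)]
    at key
  have htr : (1 : ℝ) / 2 * (Matrix.of M).trace = (∑ i, M i i) / 2 := by
    simp only [Matrix.trace, Matrix.diag_apply, Matrix.of_apply]
    ring
  rw [htr] at key
  exact (ENNReal.ofReal_le_ofReal_iff (by positivity)).1 key

/-- Donsker-Varadhan at the level `s`, for a test function of the level-0 variable -/
theorem gibbs_F (h : CSupp μ R) {F : (Fin n → ℝ) → ℝ} (hF : Continuous F) {L : ℝ}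
    (hL : ∫ x, exp (F x) ∂μ ≤ exp L) {s : ℝ} (hs : 0 < s) {a : (Fin n → ℝ) → ℝ} (ha : BM a)
    {ε : ℝ} (hε : 0 < ε) (haε : ∀ y, ε ≤ a y) {P : ℝ} (hP : EY μ s a = P) (hP0 : 0 < P) :
    EY μ s (fun y => a y * UP μ s F y)
      ≤ L * P + EY μ s (fun y => a y * log (a y)) - P * log P := by
  have hFa : Adm μ F := Adm.of_continuous h hF
  have he : Adm μ fun x => exp (F x) := Adm.of_continuous h (by fun_prop)
  set E := UP μ s fun x => exp (F x) with hE
  have hEb : BM E := SB.bm (UP_sb h he s)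
  have hFb : BM (UP μ s F) := SB.bm (UP_sb h hFa s)
  have hEE : EY μ s E ≤ exp L := by
    rw [hE, GibbsE.gb_EY_UP h he hs]
    exact hL
  have hpt : ∀ y, a y * UP μ s F y
      ≤ (L - log P - 1) * a y + (a y * log (a y) + P * exp (-L) * E y) := by
    intro y
    have ha0 : 0 < a y := hε.trans_le (haε y)
    have hpt2 : ∀ x : Fin n → ℝ, a y * F x
        ≤ ((L - log P - 1) * a y + a y * log (a y)) + P * exp (-L) * exp (F x) := by
      intro x
      have h1 := mul_le_mul_log_add_exp (a := a y / P) (b := F x - L) (by positivity)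
      rw [log_div ha0.ne' hP0.ne', exp_sub] at h1
      have h2 := mul_le_mul_of_nonneg_left h1 hP0.le
      have e1 : P * (a y / P * (F x - L)) = a y * (F x - L) := by
        field_simp
      have e2 : P * (a y / P * (log (a y) - log P) - a y / P + exp (F x) / exp L)
          = a y * (log (a y) - log P) - a y + P * exp (-L) * exp (F x) := by
        rw [exp_neg]
        field_simp
      rw [e1, e2] at h2
      linarith only [h2]
    have key := Mf_mono h (hFa.const_mul (a y))
      ((Adm.const μ ((L - log P - 1) * a y + a y * log (a y))).add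
        (he.const_mul (P * exp (-L)))) (Eventually.of_forall hpt2) (1 / s, (1 / s) • y)
    rw [Mf_const_mul, Mf_add h (Adm.const μ _) (he.const_mul _), Mf_const h, Mf_const_mul] at key
    change a y * Mf μ F (1 / s, (1 / s) • y) ≤ _
    change _ ≤ (L - log P - 1) * a y + (a y * log (a y)
      + P * exp (-L) * Mf μ (fun x => exp (F x)) (1 / s, (1 / s) • y))
    linarith only [key]
  have hb1 : BM (fun y => a y * log (a y)) := ha.ent hε haε
  have h1 := EY_mono_bmG (μ := μ) (ha.mul hFb)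
    ((ha.gsmul (L - log P - 1)).gadd (hb1.gadd (hEb.gsmul (P * exp (-L))))) hpt s
  rw [EY_add_bm (ha.gsmul _) (hb1.gadd (hEb.gsmul _)),
    EY_add_bm hb1 (hEb.gsmul _), LS.EY_const_mul, LS.EY_const_mul, hP] at h1
  have h3 : P * exp (-L) * EY μ s E ≤ P := by
    have h4 := mul_le_mul_of_nonneg_left hEE (mul_pos hP0 (exp_pos (-L))).le
    rw [mul_assoc P (exp (-L)) (exp L), ← exp_add, neg_add_cancel, exp_zero, mul_one] at h4
    exact h4
  linarith only [h1, h3]

end expo

section ptw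

variable {n : ℕ} {ρ : (Fin n → ℝ) → ℝ} [IsProbabilityMeasure (mu ρ)] {R : ℝ}

/-- `s ⟨u, D²V u⟩ ≤ |u|²` -/
theorem sPq_le (h : CSupp (mu ρ) R) {s : ℝ} (hs : 0 < s) (y u : Fin n → ℝ) :
    s * Pq (mu ρ) s y u u ≤ ∑ i, u i ^ 2 := by
  have h1 := mul_le_mul_of_nonneg_left (Pq_le h s y u) hs.le
  refine h1.trans (le_of_eq ?_)
  field_simp

/-- the two pieces `1 = Π + s D²V` of the pairing of two vectors -/
theorem pair_le (hρ : LCd ρ) (h : CSupp (mu ρ) R) {s : ℝ} (hs : 0 < s) {α : ℝ} (hα : 0 < α)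
    (y u v : Fin n → ℝ) :
    2 * ∑ i, u i * v i ≤ α * (∑ i, u i ^ 2 - s * Pq (mu ρ) s y u u) + 1 / α * ∑ i, v i ^ 2
      + ∑ i, u i ^ 2 + s * Pq (mu ρ) s y v v := by
  set w : Fin n → ℝ := fun j => ∑ i, Pv (mu ρ) i j s y * u i with hw
  have e1 : ∀ z : Fin n → ℝ, Pq (mu ρ) s y u z = ∑ j, w j * z j := by
    intro z
    unfold Pq
    rw [Finset.sum_comm]
    refine Finset.sum_congr rfl fun j _ => ?_
    rw [hw, Finset.sum_mul]
  have h1 : ∑ j, w j ^ 2 ≤ 1 / s * Pq (mu ρ) s y u u := Pu_sq_le hρ h hs y u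
  -- the first piece
  have h2 : 2 * ∑ i, (u i - s * w i) * v i
      ≤ α * ∑ i, (u i - s * w i) ^ 2 + 1 / α * ∑ i, v i ^ 2 := by
    rw [Finset.mul_sum, Finset.mul_sum, Finset.mul_sum, ← Finset.sum_add_distrib]
    refine Finset.sum_le_sum fun i _ => ?_
    have h3 : 0 ≤ (α * (u i - s * w i) - v i) ^ 2 / α := by positivity
    have e2 : (α * (u i - s * w i) - v i) ^ 2 / α
        = α * (u i - s * w i) ^ 2 + 1 / α * v i ^ 2 - 2 * ((u i - s * w i) * v i) := by
      field_simp
      ring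
    rw [e2] at h3
    linarith only [h3]
  have h3 : ∑ i, (u i - s * w i) ^ 2 ≤ ∑ i, u i ^ 2 - s * Pq (mu ρ) s y u u := by
    have e2 : ∑ i, (u i - s * w i) ^ 2
        = ∑ i, u i ^ 2 - 2 * s * Pq (mu ρ) s y u u + s ^ 2 * ∑ i, w i ^ 2 := by
      rw [e1, Finset.mul_sum, Finset.mul_sum, ← Finset.sum_sub_distrib, ← Finset.sum_add_distrib]
      refine Finset.sum_congr rfl fun i _ => ?_
      ring
    rw [e2]
    have h4 := mul_le_mul_of_nonneg_left h1 (sq_nonneg s)
    have e3 : s ^ 2 * (1 / s * Pq (mu ρ) s y u u) = s * Pq (mu ρ) s y u u := by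
      field_simp
    rw [e3] at h4
    linarith only [h4]
  -- the second piece
  have h5 : 2 * Pq (mu ρ) s y u v ≤ Pq (mu ρ) s y u u + Pq (mu ρ) s y v v := by
    have h6 := Pq_nonneg hρ h hs y (fun i => u i - v i)
    have e4 : Pq (mu ρ) s y (fun i => u i - v i) (fun i => u i - v i)
        = Pq (mu ρ) s y u u + Pq (mu ρ) s y v v - Pq (mu ρ) s y u v - Pq (mu ρ) s y v u := by
      unfold Pq
      rw [← Finset.sum_add_distrib, ← Finset.sum_sub_distrib, ← Finset.sum_sub_distrib]
      refine Finset.sum_congr rfl fun i _ => ?_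
      rw [← Finset.sum_add_distrib, ← Finset.sum_sub_distrib, ← Finset.sum_sub_distrib]
      refine Finset.sum_congr rfl fun j _ => ?_
      ring
    rw [e4, Pq_symm h s y v u] at h6
    linarith only [h6]
  have h6 := sPq_le h hs y u
  have e5 : ∑ i, u i * v i = ∑ i, (u i - s * w i) * v i + s * Pq (mu ρ) s y u v := by
    rw [e1, Finset.mul_sum, ← Finset.sum_add_distrib]
    refine Finset.sum_congr rfl fun i _ => ?_
    ring
  have h7 := mul_le_mul_of_nonneg_left h3 hα.le
  have h8 := mul_le_mul_of_nonneg_left h5 hs.le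
  rw [e5]
  linarith only [h2, h7, h8, h6]

/-- `s (|u|² - s ⟨u, D²V u⟩) ≤ E[⟨u, X⟩² | y]` -/
theorem pi_le_UP (h : CSupp (mu ρ) R) {s : ℝ} (hs : 0 < s) (y u : Fin n → ℝ) :
    s * (∑ i, u i ^ 2 - s * Pq (mu ρ) s y u u)
      ≤ UP (mu ρ) s (fun x => (∑ i, u i * x i) ^ 2) y := by
  rw [Pq_self h]
  have hl := Adm.lin h u
  have e1 : s * (∑ i, u i ^ 2 - s * (1 / s * ∑ i, u i ^ 2
      - 1 / s ^ 2 * Vf (mu ρ) (fun x => ∑ i, u i * x i) (1 / s, (1 / s) • y)))
      = Vf (mu ρ) (fun x => ∑ i, u i * x i) (1 / s, (1 / s) • y) := by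
    field_simp
    ring
  rw [e1]
  unfold Vf UP
  have h2 := sq_nonneg (Mf (mu ρ) (fun x => ∑ i, u i * x i) (1 / s, (1 / s) • y))
  linarith only [h2]

end ptw

end Vale.Agent.P245.H188
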