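import Vale.Agent.P245.H188.Hid1
import Vale.Agent.P245.H468.ChG

/-!
# Row HID (12), part 2: matrix fields are hidden

`Psi : κ → Fin n → field` of operator norm `≤ 1` (`∑ k (∑ i Psi k i v i)² ≤ |v|²`), a channel with
arbitrary output space, base `mu ρ` with `ExpM (mu ρ) A`.
-/

open MeasureTheory Real Set Filter Topology
open scoped ENNReal ContDiff

namespace Vale.Agent.P245.H188

open LS E1 H468

variable {n : ℕ} {W : Type*} [MeasurableSpace W] {γ : Measure W} {g : W → ℝ}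
  {ρ : (Fin n → ℝ) → ℝ} [IsProbabilityMeasure (mu ρ)] {R : ℝ}
  {κ : Type*} [Fintype κ]

/-- the contraction property of a matrix field -/
def OpLe (Ψ : κ → Fin n → (Fin n → ℝ) → ℝ) : Prop :=
  ∀ y v : Fin n → ℝ, ∑ k, (∑ i, Ψ k i y * v i) ^ 2 ≤ ∑ i, v i ^ 2

/-- `∑_k ⟨Psi_k, D²V_s Psi_k⟩` as a function -/
noncomputable def flat (μ : Measure (Fin n → ℝ)) (s : ℝ) (Ψ : κ → Fin n → (Fin n → ℝ) → ℝ)
    (y : Fin n → ℝ) : ℝ := ∑ k, Pq μ s y (fun i => Ψ k i y) (fun i => Ψ k i y)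

theorem sb_flat (h : CSupp (mu ρ) R) {s : ℝ} (hs : 0 < s)
    {Ψ : κ → Fin n → (Fin n → ℝ) → ℝ} (hΨ : ∀ k i, SB (Ψ k i)) : SB (flat (mu ρ) s Ψ) :=
  SB.sum _ fun k _ => Pq_sb h hs (hΨ k) (hΨ k)

theorem EY_flat (h : CSupp (mu ρ) R) {s : ℝ} (hs : 0 < s) {N : (Fin n → ℝ) → ℝ} (hN : Pos N)
    {Ψ : κ → Fin n → (Fin n → ℝ) → ℝ} (hΨ : ∀ k i, SB (Ψ k i)) :
    EY (mu ρ) s (fun y => N y * flat (mu ρ) s Ψ y) = ∑ k, BI (mu ρ) s N (Ψ k) (Ψ k) := by
  have e : (fun y => N y * flat (mu ρ) s Ψ y)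
      = fun y => ∑ k, N y * Pq (mu ρ) s y (fun i => Ψ k i y) (fun i => Ψ k i y) := by
    funext y
    rw [flat, Finset.mul_sum]
  rw [e, EY_sum_bm _ fun k _ => (SB.bm hN.sb).mul (SB.bm (Pq_sb h hs (hΨ k) (hΨ k)))]
  exact Finset.sum_congr rfl fun k _ => (BI_eq h hs N (Ψ k) (Ψ k)).symm

/-- the bound for one output of the channel -/
theorem hid_one (hρ : LCd ρ) (h : CSupp (mu ρ) R) {A : ℝ} (hA : 1 ≤ A) (hexp : ExpM (mu ρ) A)
    {s : ℝ} (hs : 0 < s) {N : (Fin n → ℝ) → ℝ} (hN : Pos N)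
    {Ψ : κ → Fin n → (Fin n → ℝ) → ℝ} (hΨ : ∀ k i, SB (Ψ k i)) (hop : OpLe Ψ)
    {l : W → (Fin n → ℝ) → ℝ} (hl : H468.Ch γ g l) (w : W) {α : ℝ} (hα : 0 < α) :
    (∑ p : κ × Fin n, (EY (mu ρ) s fun y => N y * Ψ p.1 p.2 y * l w y) ^ 2)
        / H468.ms (mu ρ) s N l w
      ≤ α / s * (2 * (log A * H468.ms (mu ρ) s N l w
          + EY (mu ρ) s (fun y => (N y * log (N y)) * l w y) + H468.infI (mu ρ) s N l w)
        + (∑ p : κ × Fin n, (EY (mu ρ) s fun y => N y * Ψ p.1 p.2 y * l w y) ^ 2)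
          / H468.ms (mu ρ) s N l w)
        + 1 / α * EY (mu ρ) s (fun y => (N y * ∑ p : κ × Fin n, Ψ p.1 p.2 y * Ψ p.1 p.2 y)
          * l w y)
        + s * EY (mu ρ) s (fun y => (N y * flat (mu ρ) s Ψ y) * l w y) := by
  set μ := mu ρ with hμ
  have hA0 : 0 < A := one_pos.trans_le hA
  have hP0 : 0 < H468.ms μ s N l w := H468.ms_pos hN hl w
  set P := H468.ms μ s N l w with hP
  have hPe : EY μ s (fun y => N y * l w y) = P := rfl
  obtain ⟨ε, hε, hNε⟩ := hN.lb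
  obtain ⟨K, hK0, hK⟩ := hl.bd
  have hNb : BM N := SB.bm hN.sb
  have hlb : BM (l w) := hl.bm w
  have hab : BM (fun y => N y * l w y) := hNb.mul hlb
  have haε : ∀ y, ε * exp (-(K * g w)) ≤ N y * l w y := fun y =>
    mul_le_mul (hNε y) (hK w y).1 (exp_pos _).le (hε.le.trans (hNε y))
  have hap : ∀ y, 0 < N y * l w y := fun y => mul_pos (hN.pos y) (hl.pos w y)
  set V : κ → Fin n → ℝ := fun k i => EY μ s fun y => N y * Ψ k i y * l w y with hV
  set u : κ → Fin n → ℝ := fun k i => V k i / P with hu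
  have huV : ∀ k i, V k i = u k i * P := fun k i => by
    rw [hu]
    field_simp
  set M : Fin n → Fin n → ℝ := fun i j => ∑ k, u k i * u k j with hM
  have hquad : ∀ v : Fin n → ℝ, ∑ i, ∑ j, M i j * (v i * v j) = ∑ k, (∑ i, u k i * v i) ^ 2 := by
    intro v
    have e1 : ∀ k, (∑ i, u k i * v i) ^ 2 = ∑ i, ∑ j, (u k i * u k j) * (v i * v j) := by
      intro k
      rw [sq, Finset.sum_mul_sum]
      exact Finset.sum_congr rfl fun i _ => Finset.sum_congr rfl fun j _ => by ring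
    simp_rw [e1]
    symm
    calc ∑ k, ∑ i, ∑ j, (u k i * u k j) * (v i * v j)
        = ∑ i, ∑ k, ∑ j, (u k i * u k j) * (v i * v j) := Finset.sum_comm
      _ = ∑ i, ∑ j, ∑ k, (u k i * u k j) * (v i * v j) :=
          Finset.sum_congr rfl fun i _ => Finset.sum_comm
      _ = ∑ i, ∑ j, M i j * (v i * v j) :=
          Finset.sum_congr rfl fun i _ => Finset.sum_congr rfl fun j _ => by
            rw [hM, Finset.sum_mul]
  -- linear functionals of the posterior
  have hlin : ∀ (k : κ) (v : Fin n → ℝ),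
      EY μ s (fun y => N y * (∑ i, Ψ k i y * v i) * l w y) = (∑ i, u k i * v i) * P := by
    intro k v
    have e1 : (fun y => N y * (∑ i, Ψ k i y * v i) * l w y)
        = fun y => ∑ i, v i * (N y * Ψ k i y * l w y) := by
      funext y
      rw [Finset.mul_sum, Finset.sum_mul]
      exact Finset.sum_congr rfl fun i _ => by ring
    rw [e1, EY_sum_bm _ fun i _ => ((hNb.mul (SB.bm (hΨ k i))).mul hlb).gsmul (v i),
      Finset.sum_mul]
    refine Finset.sum_congr rfl fun i _ => ?_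
    rw [LS.EY_const_mul]
    change v i * V k i = _
    rw [huV]
    ring
  -- `M ≤ 1`
  have hM1 : ∀ v : Fin n → ℝ, ∑ i, ∑ j, M i j * (v i * v j) ≤ ∑ i, v i ^ 2 := by
    intro v
    rw [hquad]
    have hh : ∀ k, SB fun y => ∑ i, Ψ k i y * v i := fun k =>
      SB.sum _ fun i _ => (hΨ k i).mul (SB.const _)
    have h1 : ∀ k, (∑ i, u k i * v i) ^ 2 * P
        ≤ EY μ s fun y => (N y * ((∑ i, Ψ k i y * v i) * ∑ i, Ψ k i y * v i)) * l w y := by
      intro k
      have h2 := H468.post_cs (μ := μ) (r := s) hN (hh k) hl w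
      rw [hlin k v, ← hP] at h2
      refine (le_of_eq ?_).trans h2
      field_simp
    have h3 : ∑ k, (∑ i, u k i * v i) ^ 2 * P ≤ (∑ i, v i ^ 2) * P := by
      refine (Finset.sum_le_sum fun k _ => h1 k).trans ?_
      have hb : ∀ k ∈ (Finset.univ : Finset κ), BM fun y =>
          (N y * ((∑ i, Ψ k i y * v i) * ∑ i, Ψ k i y * v i)) * l w y := fun k _ =>
        (hNb.mul ((SB.bm (hh k)).mul (SB.bm (hh k)))).mul hlb
      rw [← EY_sum_bm _ hb, ← hPe, ← LS.EY_const_mul]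
      refine EY_mono_bmG (BM.gsum _ hb) (hab.gsmul _) (fun y => ?_) s
      have h4 := mul_le_mul_of_nonneg_right (hop y v) (hap y).le
      refine (le_of_eq ?_).trans h4
      rw [Finset.sum_mul]
      exact Finset.sum_congr rfl fun k _ => by ring
    rw [← Finset.sum_mul] at h3
    exact le_of_mul_le_mul_right h3 hP0
  have hM0 : ∀ v : Fin n → ℝ, 0 ≤ ∑ i, ∑ j, M i j * (v i * v j) := fun v => by
    rw [hquad]
    exact Finset.sum_nonneg fun k _ => sq_nonneg _
  have hMs : ∀ i j, M i j = M j i := fun i j => Finset.sum_congr rfl fun k _ => mul_comm _ _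
  -- the second moment
  set Cw := (∑ p : κ × Fin n, V p.1 p.2 ^ 2) / P with hCw
  have hCu : Cw = (∑ k, ∑ i, u k i ^ 2) * P := by
    rw [hCw, Fintype.sum_prod_type, Finset.sum_div, Finset.sum_mul]
    refine Finset.sum_congr rfl fun k _ => ?_
    rw [Finset.sum_div, Finset.sum_mul]
    refine Finset.sum_congr rfl fun i _ => ?_
    rw [huV]
    field_simp
  have htr : (∑ i, M i i) * P = Cw := by
    have e : ∑ i, ∑ k, u k i * u k i = ∑ k, ∑ i, u k i ^ 2 := by
      rw [Finset.sum_comm]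
      exact Finset.sum_congr rfl fun k _ => Finset.sum_congr rfl fun i _ => by ring
    rw [hCu, ← e]
  -- Gibbs
  set F : (Fin n → ℝ) → ℝ := fun x => (∑ i, ∑ j, M i j * (x i * x j)) / 2 with hF
  have hFc : Continuous F := by rw [hF]; fun_prop
  have hG := gibbs_F h hFc (L := log A + (∑ i, M i i) / 2)
    (by
      rw [exp_add, exp_log hA0]
      exact quad_expM h hA0.le hexp hMs hM0 hM1) hs hab (mul_pos hε (exp_pos _)) haε hPe hP0
  have hT : EY μ s (fun y => N y * l w y * log (N y * l w y))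
      = EY μ s (fun y => (N y * log (N y)) * l w y)
        + EY μ s (fun y => N y * (l w y * log (l w y))) := by
    rw [← EY_add_bm ((hNb.ent hε hNε).mul hlb) (hNb.mul (hl.bm_log w))]
    congr 1
    funext y
    rw [log_mul (hN.pos y).ne' (hl.pos w y).ne']
    ring
  have hG2 : EY μ s (fun y => N y * l w y * UP μ s F y)
      ≤ log A * P + Cw / 2 + (EY μ s (fun y => (N y * log (N y)) * l w y)
        + H468.infI μ s N l w) := by
    refine hG.trans (le_of_eq ?_)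
    rw [hT, ← htr]
    unfold H468.infI
    rw [← hP]
    ring
  -- the projection part
  have hFa : Adm μ F := Adm.of_continuous h hFc
  have hpi : ∀ y, ∑ k, (∑ i, u k i ^ 2 - s * Pq μ s y (u k) (u k)) ≤ 2 / s * UP μ s F y := by
    intro y
    have h1 : ∀ k, s * (∑ i, u k i ^ 2 - s * Pq μ s y (u k) (u k))
        ≤ UP μ s (fun x => (∑ i, u k i * x i) ^ 2) y := fun k => pi_le_UP h hs y (u k)
    have h2 : ∑ k, UP μ s (fun x => (∑ i, u k i * x i) ^ 2) y = 2 * UP μ s F y := by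
      unfold UP
      have hk : ∀ k ∈ (Finset.univ : Finset κ), Adm μ fun x => (∑ i, u k i * x i) ^ 2 :=
        fun k _ => Adm.of_continuous h (by fun_prop)
      rw [← Mf_sum h _ hk, ← Mf_const_mul]
      congr 1
      funext x
      rw [hF, ← hquad]
      ring
    have h3 : s * ∑ k, (∑ i, u k i ^ 2 - s * Pq μ s y (u k) (u k)) ≤ 2 * UP μ s F y := by
      rw [Finset.mul_sum, ← h2]
      exact Finset.sum_le_sum fun k _ => h1 k
    rw [div_mul_eq_mul_div, le_div_iff₀ hs]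
    linarith only [h3]
  have hUb : BM (UP μ s F) := SB.bm (UP_sb h hFa s)
  have hΨΨ : SB fun y => ∑ p : κ × Fin n, Ψ p.1 p.2 y * Ψ p.1 p.2 y :=
    SB.sum _ fun p _ => (hΨ p.1 p.2).mul (hΨ p.1 p.2)
  have hfl := sb_flat h hs hΨ
  -- the pointwise inequality
  have hpt : ∀ y, ∑ k, 2 * ((N y * (∑ i, Ψ k i y * u k i)) * l w y)
      ≤ α * (2 / s) * (N y * l w y * UP μ s F y)
        + (1 / α * ((N y * ∑ p : κ × Fin n, Ψ p.1 p.2 y * Ψ p.1 p.2 y) * l w y)
        + ((∑ k, ∑ i, u k i ^ 2) * (N y * l w y)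
        + s * ((N y * flat μ s Ψ y) * l w y))) := by
    intro y
    have h1 : ∀ k, 2 * ∑ i, u k i * Ψ k i y
        ≤ α * (∑ i, u k i ^ 2 - s * Pq μ s y (u k) (u k)) + 1 / α * ∑ i, Ψ k i y ^ 2
          + ∑ i, u k i ^ 2 + s * Pq μ s y (fun i => Ψ k i y) (fun i => Ψ k i y) := fun k =>
      pair_le hρ h hs hα y (u k) (fun i => Ψ k i y)
    have h2 := Finset.sum_le_sum fun k (_ : k ∈ (Finset.univ : Finset κ)) => h1 k
    rw [Finset.sum_add_distrib, Finset.sum_add_distrib, Finset.sum_add_distrib,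
      ← Finset.mul_sum, ← Finset.mul_sum, ← Finset.mul_sum, ← Finset.mul_sum] at h2
    have h3 := mul_le_mul_of_nonneg_left (hpi y) hα.le
    have h4 := mul_le_mul_of_nonneg_left (h2.trans (by
      have := h3
      linarith only [this] : _ ≤ α * (2 / s * UP μ s F y) + 1 / α * ∑ k, ∑ i, Ψ k i y ^ 2
        + ∑ k, ∑ i, u k i ^ 2 + s * ∑ k, Pq μ s y (fun i => Ψ k i y) (fun i => Ψ k i y)))
      (hap y).le
    have e1 : ∑ k, 2 * ((N y * (∑ i, Ψ k i y * u k i)) * l w y)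
        = N y * l w y * ∑ k, 2 * ∑ i, u k i * Ψ k i y := by
      rw [Finset.mul_sum]
      refine Finset.sum_congr rfl fun k _ => ?_
      have e2 : ∑ i, Ψ k i y * u k i = ∑ i, u k i * Ψ k i y :=
        Finset.sum_congr rfl fun i _ => mul_comm _ _
      rw [e2]
      ring
    have e3 : ∑ p : κ × Fin n, Ψ p.1 p.2 y * Ψ p.1 p.2 y = ∑ k, ∑ i, Ψ k i y ^ 2 := by
      rw [Fintype.sum_prod_type]
      exact Finset.sum_congr rfl fun k _ => Finset.sum_congr rfl fun i _ => by ring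
    rw [e1, e3]
    refine (le_of_eq ?_).trans (h4.trans (le_of_eq ?_))
    · congr 1
      exact (Finset.mul_sum _ _ _).symm
    · unfold flat
      ring
  have hbL : ∀ k ∈ (Finset.univ : Finset κ),
      BM fun y => 2 * ((N y * (∑ i, Ψ k i y * u k i)) * l w y) := fun k _ =>
    ((hNb.mul (SB.bm (SB.sum _ fun i _ => (hΨ k i).mul (SB.const _)))).mul hlb).gsmul 2
  have b1 : BM fun y => N y * l w y * UP μ s F y := hab.mul hUb
  have b2 : BM fun y => (N y * ∑ p : κ × Fin n, Ψ p.1 p.2 y * Ψ p.1 p.2 y) * l w y :=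
    (hNb.mul (SB.bm hΨΨ)).mul hlb
  have b4 : BM fun y => (N y * flat μ s Ψ y) * l w y := (hNb.mul (SB.bm hfl)).mul hlb
  have hI := EY_mono_bmG (μ := μ) (BM.gsum _ hbL)
    ((b1.gsmul _).gadd ((b2.gsmul _).gadd ((hab.gsmul _).gadd (b4.gsmul _)))) hpt s
  rw [EY_sum_bm _ hbL, EY_add_bm (b1.gsmul _) ((b2.gsmul _).gadd ((hab.gsmul _).gadd
    (b4.gsmul _))), EY_add_bm (b2.gsmul _) ((hab.gsmul _).gadd (b4.gsmul _)),
    EY_add_bm (hab.gsmul _) (b4.gsmul _)] at hI
  simp only [LS.EY_const_mul] at hI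
  simp_rw [hlin] at hI
  rw [hPe, ← hCu] at hI
  have e5 : ∑ k, 2 * ((∑ i, u k i * u k i) * P) = 2 * Cw := by
    rw [hCu, Finset.sum_mul, Finset.mul_sum]
    refine Finset.sum_congr rfl fun k _ => ?_
    congr 2
    exact Finset.sum_congr rfl fun i _ => by ring
  rw [e5] at hI
  have h6 := mul_le_mul_of_nonneg_left hG2 (show 0 ≤ α * (2 / s) by positivity)
  have e7 : α * (2 / s) * (log A * P + Cw / 2 + (EY μ s (fun y => (N y * log (N y)) * l w y)
        + H468.infI μ s N l w))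
      = α / s * (2 * (log A * P + EY μ s (fun y => (N y * log (N y)) * l w y)
        + H468.infI μ s N l w) + Cw) := by
    ring
  rw [e7] at h6
  linarith only [hI, h6]

variable [IsProbabilityMeasure γ]

/-- **Row HID (12).** For every `α > 0`
`Co ≤ (α/s) (2 (HE + Inf + log A) + Co) + |Psi|²/α + s ∑_k BI(Psi_k, Psi_k)`. -/
theorem hid (hg : Out γ g) (hρ : LCd ρ) (h : CSupp (mu ρ) R) {A : ℝ} (hA : 1 ≤ A)
    (hexp : ExpM (mu ρ) A) {s : ℝ} (hs : 0 < s) {N : (Fin n → ℝ) → ℝ} (hN : Pos N)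
    (hN1 : EY (mu ρ) s N = 1) {Ψ : κ → Fin n → (Fin n → ℝ) → ℝ} (hΨ : ∀ k i, SB (Ψ k i))
    (hop : OpLe Ψ) {l : W → (Fin n → ℝ) → ℝ} (hl : H468.Ch γ g l) {α : ℝ} (hα : 0 < α) :
    H468.Co γ (mu ρ) s N (fun p : κ × Fin n => Ψ p.1 p.2) l
      ≤ α / s * (2 * (HE (mu ρ) s N + H468.Inf γ (mu ρ) s N l + log A)
          + H468.Co γ (mu ρ) s N (fun p : κ × Fin n => Ψ p.1 p.2) l)
        + 1 / α * H468.IP (mu ρ) s N (fun p : κ × Fin n => Ψ p.1 p.2)
          (fun p : κ × Fin n => Ψ p.1 p.2)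
        + s * ∑ k, BI (mu ρ) s N (Ψ k) (Ψ k) := by
  set μ := mu ρ with hμ
  obtain ⟨ε, hε, hNε⟩ := hN.lb
  have hNb : BM N := SB.bm hN.sb
  have hNl : BM (fun y => N y * log (N y)) := hNb.ent hε hNε
  have hΨ' : ∀ p : κ × Fin n, SB (Ψ p.1 p.2) := fun p => hΨ p.1 p.2
  have iC := Co_integrable (μ := μ) (r := s) hg hN hΨ' hl
  have iI := Inf_integrable (μ := μ) (r := s) hg hN hl
  -- integration of the channel against bounded functions
  have fub : ∀ f : (Fin n → ℝ) → ℝ, BM f →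
      Integrable (fun w => EY μ s fun y => f y * l w y) γ ∧
        ∫ w, (EY μ s fun y => f y * l w y) ∂γ = EY μ s f := by
    intro f hf
    obtain ⟨C, hC⟩ := hf.2
    have e : (fun w => EY μ s fun y => f y * l w y)
        = fun w => ∫ y, f y * l w y ∂(lw μ s) := by
      funext w
      exact EY_bm (hf.mul (hl.bm w)) s
    rw [e]
    refine ⟨hl.int_out hg hf.1 hC, ?_⟩
    rw [hl.fubini hg hf.1 hC, EY_bm hf]
  have f1 := fub N hNb
  have f2 := fub _ hNl
  have b3 : BM fun y => N y * ∑ p : κ × Fin n, Ψ p.1 p.2 y * Ψ p.1 p.2 y :=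
    SB.bm (sb_ip hN hΨ' hΨ')
  have f3 := fub _ b3
  have b4 : BM fun y => N y * flat μ s Ψ y := hNb.mul (SB.bm (sb_flat h hs hΨ))
  have f4 := fub _ b4
  have iA : Integrable (fun w => log A * H468.ms μ s N l w
      + EY μ s (fun y => (N y * log (N y)) * l w y) + H468.infI μ s N l w) γ :=
    ((f1.1.const_mul (log A)).add f2.1).add iI
  have iB : Integrable (fun w => 2 * (log A * H468.ms μ s N l w
          + EY μ s (fun y => (N y * log (N y)) * l w y) + H468.infI μ s N l w)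
        + (∑ p : κ × Fin n, (EY μ s fun y => N y * Ψ p.1 p.2 y * l w y) ^ 2)
          / H468.ms μ s N l w) γ := (iA.const_mul 2).add iC
  have iD : Integrable (fun w => α / s * (2 * (log A * H468.ms μ s N l w
          + EY μ s (fun y => (N y * log (N y)) * l w y) + H468.infI μ s N l w)
        + (∑ p : κ × Fin n, (EY μ s fun y => N y * Ψ p.1 p.2 y * l w y) ^ 2)
          / H468.ms μ s N l w)
        + 1 / α * EY μ s (fun y => (N y * ∑ p : κ × Fin n, Ψ p.1 p.2 y * Ψ p.1 p.2 y)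
          * l w y)) γ := (iB.const_mul _).add (f3.1.const_mul _)
  have iE : Integrable (fun w => α / s * (2 * (log A * H468.ms μ s N l w
          + EY μ s (fun y => (N y * log (N y)) * l w y) + H468.infI μ s N l w)
        + (∑ p : κ × Fin n, (EY μ s fun y => N y * Ψ p.1 p.2 y * l w y) ^ 2)
          / H468.ms μ s N l w)
        + 1 / α * EY μ s (fun y => (N y * ∑ p : κ × Fin n, Ψ p.1 p.2 y * Ψ p.1 p.2 y)
          * l w y)
        + s * EY μ s (fun y => (N y * flat μ s Ψ y) * l w y)) γ := iD.add (f4.1.const_mul _)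
  have key := integral_mono iC iE fun w => hid_one hρ h hA hexp hs hN hΨ hop hl w hα
  rw [integral_add iD (f4.1.const_mul _), integral_add (iB.const_mul _) (f3.1.const_mul _),
    integral_const_mul, integral_const_mul, integral_const_mul, f3.2, f4.2,
    integral_add (iA.const_mul 2) iC, integral_const_mul] at key
  have e1 : ∫ w, (log A * H468.ms μ s N l w
      + EY μ s (fun y => (N y * log (N y)) * l w y) + H468.infI μ s N l w) ∂γ
      = log A + HE μ s N + H468.Inf γ μ s N l := by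
    have e2 : ∫ w, (log A * H468.ms μ s N l w
        + EY μ s (fun y => (N y * log (N y)) * l w y)) ∂γ = log A + HE μ s N := by
      refine (integral_add (f1.1.const_mul (log A)) f2.1).trans ?_
      rw [integral_const_mul, f2.2, f1.2, hN1, mul_one]
      rfl
    have e4 := integral_add ((f1.1.const_mul (log A)).add f2.1) iI
    refine e4.trans ?_
    rw [← e2]
    rfl
  rw [e1, EY_flat h hs hN hΨ] at key
  refine key.trans (le_of_eq ?_)
  have e5 : log A + HE μ s N + H468.Inf γ μ s N l = HE μ s N + H468.Inf γ μ s N l + log A := by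
    ring
  rw [e5]
  rfl

omit [IsProbabilityMeasure γ] in
/-- the entropy is nonnegative -/
theorem HE_nn {s : ℝ} {N : (Fin n → ℝ) → ℝ} (hN : Pos N) (hN1 : EY (mu ρ) s N = 1) :
    0 ≤ HE (mu ρ) s N := by
  obtain ⟨ε, hε, hNε⟩ := hN.lb
  have hNb : BM N := SB.bm hN.sb
  have h1 := EY_mono_bmG (μ := mu ρ) (hNb.gadd (BM.const (-1))) (hNb.ent hε hNε) (fun y => by
    have h2 := xlogx_tangent (hN.pos y) one_pos
    rw [log_one] at h2
    linarith only [h2]) s
  rw [EY_add_bm hNb (BM.const _), hN1] at h1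
  have h3 : EY (mu ρ) s (fun _ : Fin n → ℝ => (-1 : ℝ)) = -1 := by
    rw [EY_bm (BM.const _)]
    simp
  rw [h3] at h1
  have h4 : EY (mu ρ) s (fun y => N y * log (N y)) = HE (mu ρ) s N := rfl
  linarith only [h1, h4]

/-- optimisation of the parameter -/
theorem le_two_sqrt {x q r : ℝ} (hq : 0 ≤ q) (hr : 0 ≤ r)
    (h : ∀ α : ℝ, 0 < α → x ≤ α * r + 1 / α * q) : x ≤ 2 * √(q * r) := by
  rcases hq.eq_or_lt with h0 | h0
  · rw [← h0, zero_mul, sqrt_zero, mul_zero]
    rcases hr.eq_or_lt with h1 | h1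
    · have := h 1 one_pos
      rw [← h0, ← h1] at this
      linarith only [this]
    · by_contra hx
      push Not at hx
      have := h (x / (2 * r)) (by positivity)
      rw [← h0, mul_zero, add_zero] at this
      have e : x / (2 * r) * r = x / 2 := by field_simp
      rw [e] at this
      linarith only [this, hx]
  · rcases hr.eq_or_lt with h1 | h1
    · rw [← h1, mul_zero, sqrt_zero, mul_zero]
      by_contra hx
      push Not at hx
      have := h (2 * q / x) (by positivity)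
      rw [← h1, mul_zero, zero_add] at this
      have e : 1 / (2 * q / x) * q = x / 2 := by field_simp
      rw [e] at this
      linarith only [this, hx]
    · have h2 := h (√q / √r) (by positivity)
      have hsq : √q ≠ 0 := (sqrt_pos.2 h0).ne'
      have hsr : √r ≠ 0 := (sqrt_pos.2 h1).ne'
      have e1 : √q / √r * r = √(q * r) := by
        rw [sqrt_mul h0.le]
        nth_rewrite 2 [← mul_self_sqrt h1.le]
        field_simp
      have e2 : 1 / (√q / √r) * q = √(q * r) := by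
        rw [sqrt_mul h0.le]
        nth_rewrite 2 [← mul_self_sqrt h0.le]
        field_simp
      rw [e1, e2] at h2
      linarith only [h2]

/-- **Row HID (12), optimised.** With `q = |Psi|²`,
`Co ≤ 2 √(q ((2 (HE + Inf + log A) + Co) / s)) + s ∑_k BI(Psi_k, Psi_k)`. -/
theorem hid_sqrt (hg : Out γ g) (hρ : LCd ρ) (h : CSupp (mu ρ) R) {A : ℝ} (hA : 1 ≤ A)
    (hexp : ExpM (mu ρ) A) {s : ℝ} (hs : 0 < s) {N : (Fin n → ℝ) → ℝ} (hN : Pos N)
    (hN1 : EY (mu ρ) s N = 1) {Ψ : κ → Fin n → (Fin n → ℝ) → ℝ} (hΨ : ∀ k i, SB (Ψ k i))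
    (hop : OpLe Ψ) {l : W → (Fin n → ℝ) → ℝ} (hl : H468.Ch γ g l) :
    H468.Co γ (mu ρ) s N (fun p : κ × Fin n => Ψ p.1 p.2) l
      ≤ 2 * √(H468.IP (mu ρ) s N (fun p : κ × Fin n => Ψ p.1 p.2)
          (fun p : κ × Fin n => Ψ p.1 p.2)
          * ((2 * (HE (mu ρ) s N + H468.Inf γ (mu ρ) s N l + log A)
          + H468.Co γ (mu ρ) s N (fun p : κ × Fin n => Ψ p.1 p.2) l) / s))
        + s * ∑ k, BI (mu ρ) s N (Ψ k) (Ψ k) := by
  have hH := HE_nn (ρ := ρ) hN hN1
  have hI := Inf_nonneg (μ := mu ρ) (r := s) hg hN hN1 hl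
  have hC := Co_nonneg (μ := mu ρ) (r := s) (γ := γ)
    (φ := fun p : κ × Fin n => Ψ p.1 p.2) hN hl
  have hlA : 0 ≤ log A := log_nonneg hA
  have h1 := le_two_sqrt (x := H468.Co γ (mu ρ) s N (fun p : κ × Fin n => Ψ p.1 p.2) l
      - s * ∑ k, BI (mu ρ) s N (Ψ k) (Ψ k))
    (q := H468.IP (mu ρ) s N (fun p : κ × Fin n => Ψ p.1 p.2)
          (fun p : κ × Fin n => Ψ p.1 p.2))
    (r := (2 * (HE (mu ρ) s N + H468.Inf γ (mu ρ) s N l + log A)
          + H468.Co γ (mu ρ) s N (fun p : κ × Fin n => Ψ p.1 p.2) l) / s)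
    (IP_self_nonneg hN) (by positivity) (fun α hα => by
      have h2 := hid hg hρ h hA hexp hs hN hN1 hΨ hop hl hα
      have e : α / s * (2 * (HE (mu ρ) s N + H468.Inf γ (mu ρ) s N l + log A)
          + H468.Co γ (mu ρ) s N (fun p : κ × Fin n => Ψ p.1 p.2) l)
          = α * ((2 * (HE (mu ρ) s N + H468.Inf γ (mu ρ) s N l + log A)
          + H468.Co γ (mu ρ) s N (fun p : κ × Fin n => Ψ p.1 p.2) l) / s) := by
        ring
      rw [e] at h2
      linarith only [h2])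
  linarith only [h1]

/-- **Row HID (12), final form for the reveal channel.** If `Inf ≤ t/2 q`, `q = |Psi|² > 0`, then
`Co / q ≤ 2 √(t/s + 1/s + 2 (HE + log A)/(s q)) + s ∑_k BI(Psi_k, Psi_k) / q`. -/
theorem hid_ratio (hg : Out γ g) (hρ : LCd ρ) (h : CSupp (mu ρ) R) {A : ℝ} (hA : 1 ≤ A)
    (hexp : ExpM (mu ρ) A) {s : ℝ} (hs : 0 < s) {N : (Fin n → ℝ) → ℝ} (hN : Pos N)
    (hN1 : EY (mu ρ) s N = 1) {Ψ : κ → Fin n → (Fin n → ℝ) → ℝ} (hΨ : ∀ k i, SB (Ψ k i))
    (hop : OpLe Ψ) {l : W → (Fin n → ℝ) → ℝ} (hl : H468.Ch γ g l) {t q : ℝ}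
    (hq : H468.IP (mu ρ) s N (fun p : κ × Fin n => Ψ p.1 p.2)
          (fun p : κ × Fin n => Ψ p.1 p.2) = q) (hq0 : 0 < q)
    (hI : H468.Inf γ (mu ρ) s N l ≤ t / 2 * q) :
    H468.Co γ (mu ρ) s N (fun p : κ × Fin n => Ψ p.1 p.2) l / q
      ≤ 2 * √(t / s + 1 / s + 2 * (HE (mu ρ) s N + log A) / (s * q))
        + s * (∑ k, BI (mu ρ) s N (Ψ k) (Ψ k)) / q := by
  have h1 := hid_sqrt hg hρ h hA hexp hs hN hN1 hΨ hop hl
  have h2 := Co_le (μ := mu ρ) (r := s) (γ := γ)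
    (φ := fun p : κ × Fin n => Ψ p.1 p.2) hg hN (fun p => hΨ p.1 p.2) hl
  rw [hq] at h1 h2
  rw [div_le_iff₀ hq0]
  refine h1.trans ?_
  have e : (2 * √(t / s + 1 / s + 2 * (HE (mu ρ) s N + log A) / (s * q))
        + s * (∑ k, BI (mu ρ) s N (Ψ k) (Ψ k)) / q) * q
      = 2 * (√(t / s + 1 / s + 2 * (HE (mu ρ) s N + log A) / (s * q)) * q)
        + s * ∑ k, BI (mu ρ) s N (Ψ k) (Ψ k) := by
    field_simp
  rw [e]
  have h3 : √(q * ((2 * (HE (mu ρ) s N + H468.Inf γ (mu ρ) s N l + log A)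
          + H468.Co γ (mu ρ) s N (fun p : κ × Fin n => Ψ p.1 p.2) l) / s))
      ≤ √(t / s + 1 / s + 2 * (HE (mu ρ) s N + log A) / (s * q)) * q := by
    have e2 : √(t / s + 1 / s + 2 * (HE (mu ρ) s N + log A) / (s * q)) * q
        = √((t / s + 1 / s + 2 * (HE (mu ρ) s N + log A) / (s * q)) * (q * q)) := by
      rw [sqrt_mul' _ (mul_self_nonneg q), sqrt_mul_self hq0.le]
    rw [e2]
    apply sqrt_le_sqrt
    have e3 : (t / s + 1 / s + 2 * (HE (mu ρ) s N + log A) / (s * q)) * (q * q)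
        = q * ((2 * (HE (mu ρ) s N + t / 2 * q + log A) + q) / s) := by
      field_simp
      ring
    rw [e3]
    gcongr
  linarith only [h3]

end Vale.Agent.P245.H188
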