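import Vale.Agent.P245.H188.Hid2
import Vale.Agent.P254.SP.H620.DK

/-!
# Row HID (12), part 3: the linear form, and matrix fields `F(S)` with `|F| ≤ 1`
-/

open MeasureTheory Real Set Filter Topology
open scoped ENNReal ContDiff

namespace Vale.Agent.P245.H188

open LS E1 H468

/-! ### functions of symmetric matrices bounded by one are contractions -/

section mf

open Matrix

variable {ι : Type*} [Fintype ι] [DecidableEq ι]

omit [DecidableEq ι] in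
theorem dot_self_sq (v : ι → ℝ) : v ⬝ᵥ v = ∑ i, v i ^ 2 := by
  simp only [dotProduct, sq]

theorem orth_norm {U : Matrix ι ι ℝ} (hU : Uᵀ * U = 1) (x : ι → ℝ) :
    ∑ i, (U *ᵥ x) i ^ 2 = ∑ i, x i ^ 2 := by
  rw [← dot_self_sq, ← dot_self_sq, dotProduct_mulVec, ← mulVec_transpose, mulVec_mulVec, hU,
    one_mulVec]

theorem mf_vec_le {A : Matrix ι ι ℝ} (hA : Aᵀ = A) {F : ℝ → ℝ} (hF : ∀ x, |F x| ≤ 1)
    (v : ι → ℝ) : ∑ k, (∑ i, P254.SP620.mf F A k i * v i) ^ 2 ≤ ∑ i, v i ^ 2 := by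
  obtain ⟨U, m, h⟩ := P254.SP620.exists_dec hA
  have e1 : ∀ k, ∑ i, P254.SP620.mf F A k i * v i
      = (U *ᵥ (fun i => F (m i) * (Uᵀ *ᵥ v) i)) k := by
    intro k
    have e2 : (∑ i, P254.SP620.mf F A k i * v i) = (P254.SP620.mf F A *ᵥ v) k := rfl
    rw [e2, h.mf_eq, ← mulVec_mulVec, ← mulVec_mulVec]
    congr 2
    funext i
    rw [mulVec_diagonal]
  simp_rw [e1]
  rw [orth_norm h.orth]
  have e3 : ∑ i, v i ^ 2 = ∑ i, (Uᵀ *ᵥ v) i ^ 2 := by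
    rw [orth_norm (U := Uᵀ)]
    rw [transpose_transpose]
    exact h.orth'
  rw [e3]
  refine Finset.sum_le_sum fun i _ => ?_
  rw [mul_pow]
  have h1 : F (m i) ^ 2 ≤ 1 := by
    rw [← sq_abs]
    exact pow_le_one₀ (abs_nonneg _) (hF _)
  exact mul_le_of_le_one_left (sq_nonneg _) h1

end mf

variable {n : ℕ} {W : Type*} [MeasurableSpace W] {γ : Measure W} {g : W → ℝ}
  {ρ : (Fin n → ℝ) → ℝ} [IsProbabilityMeasure (mu ρ)] {R : ℝ}
  {κ : Type*} [Fintype κ]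

theorem opLe_mf {S : (Fin n → ℝ) → Matrix (Fin n) (Fin n) ℝ} (hS : ∀ y, (S y).transpose = S y)
    {F : ℝ → ℝ} (hF : ∀ x, |F x| ≤ 1) :
    OpLe fun (k i : Fin n) (y : Fin n → ℝ) => P254.SP620.mf F (S y) k i := fun y v =>
  mf_vec_le (hS y) hF v

variable [IsProbabilityMeasure γ]

/-- **Row HID (12), linear form.** If `Inf ≤ (th/2) |Psi|²` and `0 < α`, `2 α ≤ s`, then
`Co ≤ 2 (α th/s + 1/α) |Psi|² + (4 α/s) (HE + log A) + 2 s ∑_k BI(Psi_k, Psi_k)`. -/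
theorem hid_lin (hg : Out γ g) (hρ : LCd ρ) (h : CSupp (mu ρ) R) {A : ℝ} (hA : 1 ≤ A)
    (hexp : ExpM (mu ρ) A) {s : ℝ} (hs : 0 < s) {N : (Fin n → ℝ) → ℝ} (hN : Pos N)
    (hN1 : EY (mu ρ) s N = 1) {Ψ : κ → Fin n → (Fin n → ℝ) → ℝ} (hΨ : ∀ k i, SB (Ψ k i))
    (hop : OpLe Ψ) {l : W → (Fin n → ℝ) → ℝ} (hl : H468.Ch γ g l) {th α : ℝ}
    (hI : H468.Inf γ (mu ρ) s N l ≤ th / 2 * H468.IP (mu ρ) s N
      (fun p : κ × Fin n => Ψ p.1 p.2) (fun p : κ × Fin n => Ψ p.1 p.2))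
    (hα : 0 < α) (hαs : 2 * α ≤ s) :
    H468.Co γ (mu ρ) s N (fun p : κ × Fin n => Ψ p.1 p.2) l
      ≤ 2 * (α * th / s + 1 / α) * H468.IP (mu ρ) s N
          (fun p : κ × Fin n => Ψ p.1 p.2) (fun p : κ × Fin n => Ψ p.1 p.2)
        + 4 * α / s * (HE (mu ρ) s N + log A) + 2 * s * ∑ k, BI (mu ρ) s N (Ψ k) (Ψ k) := by
  have h1 := hid hg hρ h hA hexp hs hN hN1 hΨ hop hl hα
  have hC := Co_nonneg (μ := mu ρ) (r := s) (γ := γ)
    (φ := fun p : κ × Fin n => Ψ p.1 p.2) hN hl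
  set C := H468.Co γ (mu ρ) s N (fun p : κ × Fin n => Ψ p.1 p.2) l with hCdef
  set q := H468.IP (mu ρ) s N (fun p : κ × Fin n => Ψ p.1 p.2)
    (fun p : κ × Fin n => Ψ p.1 p.2) with hq
  set B := ∑ k, BI (mu ρ) s N (Ψ k) (Ψ k) with hB
  set H := HE (mu ρ) s N with hH
  set I := H468.Inf γ (mu ρ) s N l with hIdef
  have h2 : α / s ≤ 1 / 2 := by
    rw [div_le_div_iff₀ hs two_pos]
    linarith only [hαs]
  have h3 : α / s * C ≤ 1 / 2 * C := mul_le_mul_of_nonneg_right h2 hC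
  have h4 : α / s * (2 * I) ≤ α / s * (th * q) := by
    apply mul_le_mul_of_nonneg_left _ (by positivity)
    linarith only [hI]
  have e1 : α / s * (2 * (H + I + log A) + C)
      = α / s * (2 * (H + log A)) + α / s * (2 * I) + α / s * C := by ring
  rw [e1] at h1
  have e2 : 2 * (α * th / s + 1 / α) * q + 4 * α / s * (H + log A) + 2 * s * B
      = 2 * (α / s * (th * q)) + 2 * (1 / α * q) + 2 * (α / s * (2 * (H + log A)))
        + 2 * (s * B) := by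
    ring
  rw [e2]
  linarith only [h1, h3, h4]

end Vale.Agent.P245.H188
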