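import Vale.Agent.P245.H188.Hid3
import Vale.Agent.P245.H468.ChR

/-!
# Row HID (12), part 4: the reveal channel of a matrix field `F(S)`, literal form for FIN
-/

open MeasureTheory Real Set Filter Topology
open scoped ENNReal ContDiff

namespace Vale.Agent.P245.H188

open LS E1 H468

variable {n : ℕ} {ρ : (Fin n → ℝ) → ℝ} [IsProbabilityMeasure (mu ρ)] {R : ℝ}
  {κ : Type*} [Fintype κ]

/-- **Row HID for the reveal channel** `W = √t Psi + G` -/
theorem hid_RL {m : ℕ} (e : Fin m ≃ κ × Fin n) (hρ : LCd ρ) (h : CSupp (mu ρ) R) {A : ℝ}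
    (hA : 1 ≤ A) (hexp : ExpM (mu ρ) A) {s : ℝ} (hs : 0 < s) {N : (Fin n → ℝ) → ℝ} (hN : Pos N)
    (hN1 : EY (mu ρ) s N = 1) {Ψ : κ → Fin n → (Fin n → ℝ) → ℝ} (hΨ : ∀ k i, SB (Ψ k i))
    (hop : OpLe Ψ) {t α : ℝ} (ht : 0 ≤ t) (hα : 0 < α) (hαs : 2 * α ≤ s) :
    H468.Co (gsn m) (mu ρ) s N (fun a => Ψ (e a).1 (e a).2)
        (H468.RL t fun a => Ψ (e a).1 (e a).2)
      ≤ 2 * (α * t / s + 1 / α) * H468.IP (mu ρ) s N (fun a => Ψ (e a).1 (e a).2)
          (fun a => Ψ (e a).1 (e a).2)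
        + 4 * α / s * (HE (mu ρ) s N + log A) + 2 * s * ∑ k, BI (mu ρ) s N (Ψ k) (Ψ k) := by
  have hΨ' : ∀ a, SB (Ψ (e a).1 (e a).2) := fun a => hΨ _ _
  have h1 := Inf_RL_le (μ := mu ρ) (r := s) hN hN1 hΨ' ht
  have e1 := IP_reindex (μ := mu ρ) (N := N) (r := s) e
    (fun p : κ × Fin n => Ψ p.1 p.2) (fun p : κ × Fin n => Ψ p.1 p.2)
  have e2 := Co_reindex (μ := mu ρ) (N := N) (r := s) (γ := gsn m)
    (l := H468.RL t fun a => Ψ (e a).1 (e a).2) e (fun p : κ × Fin n => Ψ p.1 p.2)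
  rw [e1] at h1
  rw [e2, e1]
  exact hid_lin (out_gw m) hρ h hA hexp hs hN hN1 hΨ hop (ch_RL hΨ' ht) h1 hα hαs

/-- `|F(S)|²` as an expectation of the Frobenius norm -/
theorem IP_mf {μ : Measure (Fin n → ℝ)} {s : ℝ} {N : (Fin n → ℝ) → ℝ}
    (Q : (Fin n → ℝ) → Matrix (Fin n) (Fin n) ℝ) :
    H468.IP μ s N (fun p : Fin n × Fin n => fun y => Q y p.1 p.2)
      (fun p : Fin n × Fin n => fun y => Q y p.1 p.2)
      = EY μ s fun y => N y * P254.SP620.fr (Q y) := by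
  unfold H468.IP P254.SP620.fr
  congr 1
  funext y
  rw [Fintype.sum_prod_type]
  congr 1
  exact Finset.sum_congr rfl fun i _ => Finset.sum_congr rfl fun j _ => by ring

/-- **Row HID, literal form for FIN**: `Psi = F(S)`, `|F| ≤ 1`, `S` a field of symmetric matrices,
any enumeration `e` of the entries. -/
theorem hid_mf {m : ℕ} (e : Fin m ≃ Fin n × Fin n) (hρ : LCd ρ) (h : CSupp (mu ρ) R)
    (hexp : ExpM (mu ρ) 1) {s : ℝ} (hs : 0 < s) {N : (Fin n → ℝ) → ℝ} (hN : Pos N)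
    (hN1 : EY (mu ρ) s N = 1) {S : (Fin n → ℝ) → Matrix (Fin n) (Fin n) ℝ}
    (hS : ∀ y, (S y).transpose = S y) {F : ℝ → ℝ} (hF : ∀ x, |F x| ≤ 1)
    (hSB : ∀ i j, SB fun y => P254.SP620.mf F (S y) i j) {t α : ℝ} (ht : 0 ≤ t) (hα : 0 < α)
    (hαs : 2 * α ≤ s) :
    H468.Co (gsn m) (mu ρ) s N (fun a y => P254.SP620.mf F (S y) (e a).1 (e a).2)
        (H468.RL t fun a y => P254.SP620.mf F (S y) (e a).1 (e a).2)
      ≤ 2 * (α * t / s + 1 / α) * EY (mu ρ) s (fun y => N y * P254.SP620.fr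
          (P254.SP620.mf F (S y)))
        + 4 * α / s * HE (mu ρ) s N
        + 2 * s * EY (mu ρ) s (fun y => N y * ∑ k, ∑ i, ∑ j, PV (mu ρ) s i j y
          * P254.SP620.mf F (S y) i k * P254.SP620.mf F (S y) j k) := by
  set Ψ : Fin n → Fin n → (Fin n → ℝ) → ℝ := fun k i y => P254.SP620.mf F (S y) k i with hΨdef
  have hΨ : ∀ k i, SB (Ψ k i) := fun k i => hSB k i
  have h1 := hid_RL e hρ h le_rfl hexp hs hN hN1 hΨ (opLe_mf hS hF) ht hα hαs
  have e1 := IP_reindex (μ := mu ρ) (N := N) (r := s) e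
    (fun p : Fin n × Fin n => Ψ p.1 p.2) (fun p : Fin n × Fin n => Ψ p.1 p.2)
  rw [e1, log_one, add_zero] at h1
  have e2 : H468.IP (mu ρ) s N (fun p : Fin n × Fin n => Ψ p.1 p.2)
      (fun p : Fin n × Fin n => Ψ p.1 p.2)
      = EY (mu ρ) s (fun y => N y * P254.SP620.fr (P254.SP620.mf F (S y))) := IP_mf _
  have e3 : ∑ k, BI (mu ρ) s N (Ψ k) (Ψ k)
      = EY (mu ρ) s (fun y => N y * ∑ k, ∑ i, ∑ j, PV (mu ρ) s i j y
          * P254.SP620.mf F (S y) i k * P254.SP620.mf F (S y) j k) := by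
    rw [← EY_flat h hs hN hΨ]
    congr 1
    funext y
    congr 1
    unfold flat Pq
    refine Finset.sum_congr rfl fun k _ => Finset.sum_congr rfl fun i _ =>
      Finset.sum_congr rfl fun j _ => ?_
    rw [PV_eq' h hs]
    have hs1 : ∀ a b, P254.SP620.mf F (S y) a b = P254.SP620.mf F (S y) b a := by
      intro a b
      obtain ⟨U, m', hD⟩ := P254.SP620.exists_dec (hS y)
      have h2 := hD.mf_symm F
      calc P254.SP620.mf F (S y) a b = (P254.SP620.mf F (S y)).transpose a b := by rw [h2]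
        _ = _ := rfl
    rw [hs1 i k, hs1 j k]
  rw [e2, e3] at h1
  exact h1

end Vale.Agent.P245.H188
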